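import Vale.Agent.P097.H146.Half

/-!
# P097, case [c], row A5.HD, part 2 : the profile `ω (k+1)^(-3/2)`

`half_prof` : `half_main` with the profile `w_k = ω (k+1)^(-3/2)` (`k + 1 < n`), `w_(n-1) = ω`
(the arc stays in a fixed compact at the scale `2^n`), for base bounds
`log |f| ≤ exp (C (k+1)^(3/4)) (1 + v_(k+1))` in the `k`-th octave, `Σ v_(k+1) b^k ≤ M₀`,
`1/2 < b < 1` (excursion sums).
-/

open Finset Complex Metric Set Filter Topology

namespace Vale.Agent.P097.H146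

open Vale.Agent.P097.H226

/-- the profile without constant -/
noncomputable def pr (k : ℕ) : ℝ := ((k : ℝ) + 1) ^ (-(3 / 2) : ℝ)

theorem pr_pos (k : ℕ) : 0 < pr k := Real.rpow_pos_of_pos (by positivity) _

theorem pr_le_one (k : ℕ) : pr k ≤ 1 := by
  unfold pr
  exact Real.rpow_le_one_of_one_le_of_nonpos (by linarith [Nat.cast_nonneg (α := ℝ) k])
    (by norm_num)

theorem pr_summable : Summable pr := by
  have h := (summable_nat_add_iff 1).mpr
    (Real.summable_nat_rpow (p := -(3 / 2)) |>.mpr (by norm_num))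
  refine h.congr fun k => ?_
  unfold pr
  push_cast
  rfl

/-- subexponential factor against a geometric gain -/
theorem sub_exp (C : ℝ) {b : ℝ} (hb : 1 / 2 < b) :
    ∃ M ≥ 0, ∀ k : ℕ, Real.exp (C * ((k : ℝ) + 1) ^ (3 / 4 : ℝ)) * (1 / 2) ^ k ≤ M * b ^ k := by
  have hb0 : 0 < b := by linarith
  have h1 : Tendsto (fun x : ℝ => C * x ^ (3 / 4 : ℝ) - Real.log (2 * b) * x) atTop atBot := by
    have hl : 0 < Real.log (2 * b) := Real.log_pos (by linarith)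
    have h2 : Tendsto (fun x : ℝ => C * x ^ (-(1 / 4) : ℝ) - Real.log (2 * b)) atTop
        (𝓝 (C * 0 - Real.log (2 * b))) := by
      apply Tendsto.sub_const
      apply Tendsto.const_mul
      have := tendsto_rpow_neg_atTop (y := (1 / 4 : ℝ)) (by norm_num)
      exact this
    rw [mul_zero, zero_sub] at h2
    have h3 := h2.neg_mul_atTop (neg_lt_zero.mpr hl) tendsto_id
    refine h3.congr' ?_
    filter_upwards [eventually_gt_atTop (0 : ℝ)] with x hx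
    have : x ^ (-(1 / 4) : ℝ) * x = x ^ (3 / 4 : ℝ) := by
      nth_rewrite 2 [← Real.rpow_one x]
      rw [← Real.rpow_add hx]
      norm_num
    simp only [id]
    rw [sub_mul, mul_assoc, this]
  have h4 : Tendsto (fun k : ℕ => ((k : ℝ) + 1)) atTop atTop :=
    tendsto_atTop_add_const_right _ _ tendsto_natCast_atTop_atTop
  have h5 := Real.tendsto_exp_atBot.comp (h1.comp h4)
  obtain ⟨M, hM⟩ := h5.bddAbove_range
  have hM' : ∀ k : ℕ, Real.exp (C * ((k : ℝ) + 1) ^ (3 / 4 : ℝ) -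
      Real.log (2 * b) * ((k : ℝ) + 1)) ≤ M := fun k => hM ⟨k, rfl⟩
  have hM0 : 0 ≤ M := (Real.exp_pos _).le.trans (hM' 0)
  refine ⟨M * (2 * b), by positivity, fun k => ?_⟩
  have h6 := hM' k
  rw [Real.exp_sub, div_le_iff₀ (Real.exp_pos _)] at h6
  have h7 : Real.exp (Real.log (2 * b) * ((k : ℝ) + 1)) = (2 * b) ^ (k + 1) := by
    rw [← Real.rpow_natCast, Real.rpow_def_of_pos (by positivity)]
    push_cast
    rfl
  rw [h7] at h6
  calc Real.exp (C * ((k : ℝ) + 1) ^ (3 / 4 : ℝ)) * (1 / 2) ^ k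
      ≤ (M * (2 * b) ^ (k + 1)) * (1 / 2) ^ k :=
        mul_le_mul_of_nonneg_right h6 (by positivity)
    _ = M * (2 * b) * b ^ k * (2 ^ k * (1 / 2) ^ k) := by rw [mul_pow, pow_succ, pow_succ]; ring
    _ = M * (2 * b) * b ^ k := by
        rw [← mul_pow]; norm_num

/-- the sum of the base bounds -/
theorem sum_le (C : ℝ) {b M₀ : ℝ} (hb : 1 / 2 < b) (hb1 : b < 1) :
    ∃ M ≥ 0, ∀ (n : ℕ) (v : ℕ → ℝ), (∀ k, 0 ≤ v k) → ∑ k ∈ range n, v (k + 1) * b ^ k ≤ M₀ →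
    ∑ k ∈ range n, Real.exp (C * ((k : ℝ) + 1) ^ (3 / 4 : ℝ)) * (1 + v (k + 1)) * (1 / 2) ^ k
      ≤ M := by
  obtain ⟨M, hM, h⟩ := sub_exp C hb
  have hb0 : 0 < b := by linarith
  refine ⟨M * ((1 - b)⁻¹ + |M₀|), by
    have : 0 < (1 - b)⁻¹ := inv_pos.mpr (by linarith)
    positivity, fun n v hv hs => ?_⟩
  calc ∑ k ∈ range n, Real.exp (C * ((k : ℝ) + 1) ^ (3 / 4 : ℝ)) * (1 + v (k + 1)) * (1 / 2) ^ k
      ≤ ∑ k ∈ range n, M * (b ^ k + v (k + 1) * b ^ k) := by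
        apply Finset.sum_le_sum
        intro k _
        have h1 := h k
        have h2 : 0 ≤ 1 + v (k + 1) := by linarith [hv (k + 1)]
        nlinarith
    _ = M * (∑ k ∈ range n, b ^ k + ∑ k ∈ range n, v (k + 1) * b ^ k) := by
        rw [← Finset.mul_sum, Finset.sum_add_distrib]
    _ ≤ M * ((1 - b)⁻¹ + |M₀|) := by
        apply mul_le_mul_of_nonneg_left _ hM
        apply add_le_add
        · exact (Summable.sum_le_tsum _ (fun k _ => by positivity)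
            (summable_geometric_of_lt_one hb0.le hb1)).trans_eq (tsum_geometric_of_lt_one hb0.le hb1)
        · exact hs.trans (le_abs_self _)

/-- **ROW A5.HD, with the profile.** -/
theorem half_prof {K : Set (ℝ × ℝ)} (hK : IsOpen K) (hadd : ∀ y ∈ K, ∀ y' ∈ K, y + y' ∈ K)
    (hsm : ∀ s : ℝ, 0 < s → ∀ y ∈ K, s • y ∈ K) {a : ℝ × ℝ} (ha : a ∈ K) {W : Set (ℂ × ℂ)}
    (hW : IsCompact W) (hWK : ∀ z ∈ W, im2 z ∈ K) :
    ∃ ω > 0, ∃ X ≥ 1, ∃ V : Set (ℝ × ℝ), IsCompact V ∧ V ⊆ K ∧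
    ∀ C b M₀ : ℝ, 0 ≤ C → 1 / 2 < b → b < 1 → ∃ M ≥ 0,
    ∀ (n : ℕ) (f : ℂ × ℂ → ℂ), 1 ≤ n →
    DifferentiableOn ℂ f {z | im2 z ∈ K ∧ ‖z‖ < 4 * X * 2 ^ n} →
    ∀ (v : ℕ → ℝ) (A : ℝ), (∀ k, 0 ≤ v k) → 0 ≤ A → v 0 ≤ M₀ →
    ∑ k ∈ range n, v (k + 1) * b ^ k ≤ M₀ →
    (∀ (y : ℝ × ℝ) (h : ℝ), ‖y‖ ≤ X → ω ≤ h → h ≤ X →
      ‖f (pt y (h • a))‖ ≤ Real.exp (C * (1 + v 0))) →
    (∀ k < n, ∀ (y : ℝ × ℝ) (h : ℝ), ‖y‖ ≤ X * 2 ^ (k + 1) → ω * pr k * 2 ^ k ≤ h →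
      h ≤ X * 2 ^ (k + 1) → ‖f (pt y (h • a))‖ ≤
        Real.exp (Real.exp (C * ((k : ℝ) + 1) ^ (3 / 4 : ℝ)) * (1 + v (k + 1)))) →
    (∀ v ∈ V, ∀ (y : ℝ × ℝ) (h t : ℝ), ‖y‖ ≤ X * 2 ^ n → ω * 2 ^ n ≤ h →
      h ≤ X * 2 ^ n → 0 ≤ t → t ≤ 2 ^ n → ‖f (pt y (h • a + t • v))‖ ≤ Real.exp A) →
    ∀ z ∈ W, ‖f z‖ ≤ Real.exp (M + 2 * A * (1 / 2) ^ n) := by
  obtain ⟨β, hβ, X, hX, V, hV, hVK, H⟩ := half_main hK hadd hsm ha hW hWK
  set S := ∑' k, pr k with hS
  have hS0 : 0 ≤ S := tsum_nonneg fun k => (pr_pos k).le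
  set ω := β / (8 * (S + 1)) with hω
  have hω0 : 0 < ω := by positivity
  have hωβ : ω * (S + 1) = β / 8 := by rw [hω]; field_simp
  have hωβ' : ω ≤ β / 8 := by nlinarith
  refine ⟨ω, hω0, X, hX, V, hV, hVK, ?_⟩
  intro C b M₀ hC hb hb1
  obtain ⟨M, hM, hsum⟩ := sum_le C (M₀ := M₀) hb hb1
  refine ⟨C * (1 + |M₀|) + 2 * M, by positivity, ?_⟩
  intro n f hn hf v A hv hA hv0 hvs h0 h1 h2 z hz
  -- the profile
  set w : ℕ → ℝ := fun k => if k + 1 = n then 4 * ω else 2 * ω * pr k with hw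
  have hw0 : ∀ k, 0 ≤ w k := by
    intro k
    simp only [hw]
    have := pr_pos k
    split_ifs <;> positivity
  have hwlow : ∀ k, 2 * ω * pr k ≤ w k := by
    intro k
    simp only [hw]
    have := pr_le_one k
    split_ifs
    · nlinarith
    · exact le_rfl
  have hws : ω + ∑ k ∈ range n, w k ≤ β := by
    have h3 : ∑ k ∈ range n, w k ≤ ∑ k ∈ range n, (2 * ω * pr k + if k = n - 1 then 4 * ω else 0) := by
      apply Finset.sum_le_sum
      intro k _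
      simp only [hw]
      have := pr_pos k
      by_cases h : k + 1 = n
      · have h' : k = n - 1 := by omega
        rw [if_pos h, if_pos h']
        have : 0 ≤ 2 * ω * pr k := by positivity
        linarith
      · rw [if_neg h]
        split_ifs <;> linarith
    rw [Finset.sum_add_distrib, ← Finset.mul_sum, Finset.sum_ite_eq'] at h3
    have h4 : ∑ k ∈ range n, pr k ≤ S :=
      pr_summable.sum_le_tsum _ (fun k _ => (pr_pos k).le)
    have h5 : (if n - 1 ∈ range n then 4 * ω else 0) ≤ 4 * ω := by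
      split_ifs <;> linarith
    have h6 : 2 * ω * ∑ k ∈ range n, pr k ≤ 2 * ω * S :=
      mul_le_mul_of_nonneg_left h4 (by positivity)
    nlinarith
  set B : ℕ → ℝ := fun k => if k = 0 then C * (1 + v 0) else
    Real.exp (C * (k : ℝ) ^ (3 / 4 : ℝ)) * (1 + v k) with hB
  have hB0 : ∀ k, 0 ≤ B k := by
    intro k
    simp only [hB]
    have := hv 0
    have := hv k
    split_ifs
    · positivity
    · positivity
  have hB1 : ∀ k, B (k + 1) = Real.exp (C * ((k : ℝ) + 1) ^ (3 / 4 : ℝ)) * (1 + v (k + 1)) := by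
    intro k
    simp only [hB]
    rw [if_neg (by omega)]
    push_cast
    rfl
  have key := H n w ω hw0 hω0 hws f hf B A hB0 hA ?_ ?_ ?_ z hz
  · refine key.trans (Real.exp_le_exp.mpr ?_)
    have h3 := hsum n v hv hvs
    have h4 : ∑ k ∈ range n, B (k + 1) * (1 / 2) ^ k ≤ M := by
      refine le_trans (le_of_eq ?_) h3
      apply Finset.sum_congr rfl
      intro k _
      rw [hB1 k]
    have h5 : B 0 = C * (1 + v 0) := by simp [hB]
    have h6 : C * (1 + v 0) ≤ C * (1 + |M₀|) :=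
      mul_le_mul_of_nonneg_left (by linarith [le_abs_self M₀]) hC
    rw [h5]
    nlinarith
  · intro y h i1 i2 i3
    have h5 : B 0 = C * (1 + v 0) := by simp [hB]
    rw [h5]
    exact h0 y h i1 i2 i3
  · intro k hk y h i1 i2 i3
    rw [hB1 k]
    refine h1 k hk y h i1 ?_ i3
    refine le_trans ?_ i2
    have h3 := hwlow k
    have h4 : (0 : ℝ) < 2 ^ k := by positivity
    nlinarith
  · intro u hu y h t i1 i2 i3 i4 i5 i6
    refine h2 u hu y h t i1 ?_ i4 i5 i6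
    have h3 := i2 (n - 1) (by omega)
    have h4 : w (n - 1) = 4 * ω := by
      simp only [hw]
      rw [if_pos (by omega)]
    rw [h4] at h3
    have h5 : (2 : ℝ) ^ n = 2 * 2 ^ (n - 1) := by
      obtain ⟨m, rfl⟩ : ∃ m, n = m + 1 := ⟨n - 1, by omega⟩
      simp [pow_succ, mul_comm]
    rw [h5]
    linarith

end Vale.Agent.P097.H146
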