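import Vale.Agent.P097.H226.Major
import Vale.Agent.P097.H146.Prof

/-!
# P097, case [c] : the maximum principle on a region above the real axis, any radii

`D` bounded, `D ⊆ {0 ≤ Im}`, `u` real. `mjr` = holomorphic majorant with base term `b₀` and terms
`2 b_i P (R_i) (w - u)`: it is `≥ b₀ + b_i` where `R_i ≤ |w - u|`, and `≤ b₀ + 2 |w - u| Σ b_i / R_i`.
`wmax` : bound of one function. `winc` : signed form (incidence). `wprof` : octave data with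
sub-exponential factors.
-/

open Finset Complex Metric Set Filter Topology

namespace Vale.Agent.P097.H146

open Vale.Agent.P097.H226

variable {ι : Type*}

/-- holomorphic majorant with radii `R i` centred at the real point `u` -/
noncomputable def mjr (u b₀ : ℝ) (s : Finset ι) (R b : ι → ℝ) (w : ℂ) : ℂ :=
  b₀ + ∑ i ∈ s, ((2 * b i : ℝ) : ℂ) * pc (R i) (w - u)

theorem mjr_re (u b₀ : ℝ) (s : Finset ι) (R b : ι → ℝ) (w : ℂ) :
    (mjr u b₀ s R b w).re = b₀ + ∑ i ∈ s, 2 * b i * P (R i) (w - u) := by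
  unfold mjr P
  rw [Complex.add_re, Complex.ofReal_re, Complex.re_sum]
  congr 1
  apply Finset.sum_congr rfl
  intro k _
  rw [Complex.re_ofReal_mul]

theorem mjr_lower0 {u b₀ : ℝ} {s : Finset ι} {R b : ι → ℝ} (hR : ∀ i ∈ s, 0 < R i)
    (hb : ∀ i ∈ s, 0 ≤ b i) {w : ℂ} (hw : 0 ≤ w.im) : b₀ ≤ (mjr u b₀ s R b w).re := by
  rw [mjr_re]
  have : 0 ≤ ∑ i ∈ s, 2 * b i * P (R i) (w - u) := by
    apply Finset.sum_nonneg
    intro i hi
    have h1 := P_nonneg (hR i hi) (ζ := w - u) (by simpa using hw)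
    have h2 := hb i hi
    positivity
  linarith

theorem mjr_lower {u b₀ : ℝ} {s : Finset ι} {R b : ι → ℝ} (hR : ∀ i ∈ s, 0 < R i)
    (hb : ∀ i ∈ s, 0 ≤ b i) {w : ℂ} (hw : 0 ≤ w.im) {i : ι} (hi : i ∈ s) (h : R i ≤ ‖w - u‖) :
    b₀ + b i ≤ (mjr u b₀ s R b w).re := by
  have hw' : 0 ≤ (w - u).im := by simpa using hw
  rw [mjr_re]
  have h1 : 2 * b i * P (R i) (w - u) ≤ ∑ i ∈ s, 2 * b i * P (R i) (w - u) := by
    apply Finset.single_le_sum (f := fun i => 2 * b i * P (R i) (w - u)) _ hi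
    intro j hj
    have h1 := P_nonneg (hR j hj) hw'
    have h2 := hb j hj
    positivity
  have h2 := half_le_P (hR i hi) hw' h
  have h3 := hb i hi
  nlinarith

theorem mjr_upper {u b₀ : ℝ} {s : Finset ι} {R b : ι → ℝ} (hR : ∀ i ∈ s, 0 < R i)
    (hb : ∀ i ∈ s, 0 ≤ b i) {w : ℂ} (hw : 0 ≤ w.im) :
    (mjr u b₀ s R b w).re ≤ b₀ + 2 * ‖w - u‖ * ∑ i ∈ s, b i / R i := by
  rw [mjr_re, Finset.mul_sum]
  refine add_le_add le_rfl (Finset.sum_le_sum fun i hi => ?_)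
  have h1 := P_le_div (hR i hi) (ζ := w - u) (by simpa using hw)
  have h2 := hb i hi
  calc 2 * b i * P (R i) (w - u) ≤ 2 * b i * (‖w - u‖ / R i) :=
        mul_le_mul_of_nonneg_left h1 (by positivity)
    _ = 2 * ‖w - u‖ * (b i / R i) := by ring

theorem mjr_dc {u b₀ : ℝ} {s : Finset ι} {R b : ι → ℝ} (hR : ∀ i ∈ s, 0 < R i) {D : Set ℂ}
    (hD : D ⊆ {ζ | 0 ≤ ζ.im}) : DiffContOnCl ℂ (mjr u b₀ s R b) D := by
  apply DifferentiableOn.diffContOnCl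
  have hcl : closure D ⊆ {ζ | 0 ≤ ζ.im} :=
    closure_minimal hD (isClosed_le continuous_const continuous_im)
  intro ζ hζ
  have h0 := hcl hζ
  simp only [mem_ofPred_eq] at h0
  unfold mjr
  apply DifferentiableAt.differentiableWithinAt
  apply DifferentiableAt.const_add
  apply DifferentiableAt.fun_sum
  intro k hk
  apply DifferentiableAt.const_mul
  have h1 : DifferentiableAt ℂ (pc (R k)) (ζ - u) :=
    (pc_diff (hR k hk)).differentiableAt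
      ((isOpen_lt continuous_const continuous_im).mem_nhds
        (by simp only [mem_ofPred_eq, sub_im, ofReal_im, sub_zero]; linarith [hR k hk]))
  have h2 : DifferentiableAt ℂ (fun w : ℂ => w - (u : ℂ)) ζ := differentiableAt_id.sub_const _
  exact DifferentiableAt.comp (f := fun w : ℂ => w - (u : ℂ)) (g := pc (R k)) ζ h1 h2

/-- **maximum principle, any radii** -/
theorem wmax {D : Set ℂ} (hDb : Bornology.IsBounded D) (hD : D ⊆ {ζ | 0 ≤ ζ.im}) {g : ℂ → ℂ}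
    (hg : DiffContOnCl ℂ g D) {u b₀ : ℝ} {s : Finset ι} {R b : ι → ℝ} (hR : ∀ i ∈ s, 0 < R i)
    (hb : ∀ i ∈ s, 0 ≤ b i)
    (h : ∀ w ∈ frontier D, ‖g w‖ ≤ Real.exp b₀ ∨
      ∃ i ∈ s, R i ≤ ‖w - u‖ ∧ ‖g w‖ ≤ Real.exp (b₀ + b i)) {w : ℂ} (hw : w ∈ closure D) :
    ‖g w‖ ≤ Real.exp (b₀ + 2 * ‖w - u‖ * ∑ i ∈ s, b i / R i) := by
  have hcl : closure D ⊆ {ζ | 0 ≤ ζ.im} :=
    closure_minimal hD (isClosed_le continuous_const continuous_im)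
  refine (major hDb hg (mjr_dc hR hD (u := u) (b₀ := b₀) (b := b)) (fun z hz => ?_) hw).trans
    (Real.exp_le_exp.mpr (mjr_upper hR hb (hcl hw)))
  have hz0 : 0 ≤ z.im := hcl (frontier_subset_closure hz)
  rcases h z hz with h2 | ⟨i, hi, h3, h4⟩
  · exact h2.trans (Real.exp_le_exp.mpr (mjr_lower0 hR hb hz0))
  · exact h4.trans (Real.exp_le_exp.mpr (mjr_lower hR hb hz0 hi h3))

/-- **signed form, any radii** : `Re G ≥ - (b₀ + b_i)` and `|m| ≤ exp (c + |Re G|)` on the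
boundary give `|m| ≤ exp (c + Re G + 2 H)` and `Re G ≥ - H` inside, `H = b₀ + 2 |w-u| Σ b_i/R_i`. -/
theorem winc {D : Set ℂ} (hDb : Bornology.IsBounded D) (hD : D ⊆ {ζ | 0 ≤ ζ.im}) {m G : ℂ → ℂ}
    (hm : DiffContOnCl ℂ m D) (hG : DiffContOnCl ℂ G D) {u b₀ c : ℝ} {s : Finset ι} {R b : ι → ℝ}
    (hb₀ : 0 ≤ b₀) (hR : ∀ i ∈ s, 0 < R i) (hb : ∀ i ∈ s, 0 ≤ b i)
    (h : ∀ w ∈ frontier D, -b₀ ≤ (G w).re ∨ ∃ i ∈ s, R i ≤ ‖w - u‖ ∧ -(b₀ + b i) ≤ (G w).re)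
    (h2 : ∀ w ∈ frontier D, ‖m w‖ ≤ Real.exp (c + |(G w).re|)) {w : ℂ} (hw : w ∈ closure D) :
    -(b₀ + 2 * ‖w - u‖ * ∑ i ∈ s, b i / R i) ≤ (G w).re ∧
    ‖m w‖ ≤ Real.exp (c + (G w).re + 2 * (b₀ + 2 * ‖w - u‖ * ∑ i ∈ s, b i / R i)) := by
  have hcl : closure D ⊆ {ζ | 0 ≤ ζ.im} :=
    closure_minimal hD (isClosed_le continuous_const continuous_im)
  have hh := mjr_dc hR hD (u := u) (b₀ := b₀) (b := b)
  have hlow : ∀ z ∈ frontier D, -(mjr u b₀ s R b z).re ≤ (G z).re := by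
    intro z hz
    have hz0 : 0 ≤ z.im := hcl (frontier_subset_closure hz)
    rcases h z hz with h2 | ⟨i, hi, h3, h4⟩
    · linarith [mjr_lower0 hR hb hz0 (u := u) (b₀ := b₀)]
    · linarith [mjr_lower hR hb hz0 hi h3 (b₀ := b₀)]
  have hup := mjr_upper hR hb (hcl hw) (u := u) (b₀ := b₀)
  constructor
  · -- `exp (-G)` is bounded by `exp H`
    have hE : DiffContOnCl ℂ (fun z => Complex.exp (-G z)) D :=
      ⟨hG.differentiableOn.neg.cexp, hG.continuousOn.neg.cexp⟩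
    have h5 := major hDb hE hh (fun z hz => by
      rw [Complex.norm_exp, Complex.neg_re]
      exact Real.exp_le_exp.mpr (by linarith [hlow z hz])) hw
    rw [Complex.norm_exp, Complex.neg_re, Real.exp_le_exp] at h5
    linarith
  · have h5 := incidence hDb hm hG hh (fun z hz =>
      hb₀.trans (mjr_lower0 hR hb (hcl (frontier_subset_closure hz)))) hlow h2 hw
    exact h5.trans (Real.exp_le_exp.mpr (by linarith))

/-- octave radii `2^k r` (`k < n`) and the arc `ρ` -/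
theorem sum_oct {r ρ A : ℝ} (n : ℕ) (v : ℕ → ℝ) :
    ∑ i ∈ insertNone (range n), (Option.elim i A v) / (Option.elim i ρ fun k => 2 ^ k * r) =
      A / ρ + (∑ k ∈ range n, v k * (1 / 2) ^ k) / r := by
  rw [Finset.sum_insertNone]
  simp only [Option.elim]
  congr 1
  rw [Finset.sum_div]
  apply Finset.sum_congr rfl
  intro k _
  rw [one_div, inv_pow, mul_comm (2 ^ k : ℝ) r]
  field_simp

/-- **one function, octaves and arc** (`D` = 400's region `S`) -/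
theorem wmax_oct {D : Set ℂ} (hDb : Bornology.IsBounded D) (hD : D ⊆ {ζ | 0 ≤ ζ.im}) {g : ℂ → ℂ}
    (hg : DiffContOnCl ℂ g D) {u r ρ b₀ A : ℝ} (hr : 0 < r) (hρ : 0 < ρ) (hA : 0 ≤ A) {n : ℕ}
    {B : ℕ → ℝ} (hB : ∀ k, 0 ≤ B k)
    (h : ∀ w ∈ frontier D, ‖g w‖ ≤ Real.exp b₀ ∨
      (∃ k < n, 2 ^ k * r ≤ ‖w - u‖ ∧ ‖g w‖ ≤ Real.exp (b₀ + B k)) ∨
      (ρ ≤ ‖w - u‖ ∧ ‖g w‖ ≤ Real.exp (b₀ + A))) {w : ℂ} (hw : w ∈ closure D) :
    ‖g w‖ ≤ Real.exp (b₀ + 2 * (‖w - u‖ / r) *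
      (∑ k ∈ range n, B k * (1 / 2) ^ k + A * (r / ρ))) := by
  have key := wmax hDb hD hg (u := u) (b₀ := b₀) (s := insertNone (range n))
    (R := fun i => Option.elim i ρ fun k => 2 ^ k * r) (b := fun i => Option.elim i A B) ?_ ?_ ?_ hw
  · rw [sum_oct] at key
    refine key.trans (le_of_eq ?_)
    congr 2
    field_simp
    ring
  · rintro (_ | k) _
    · exact hρ
    · simp only [Option.elim]; positivity
  · rintro (_ | k) _
    · exact hA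
    · exact hB k
  · intro z hz
    rcases h z hz with h1 | ⟨k, hk, h2, h3⟩ | ⟨h2, h3⟩
    · exact Or.inl h1
    · exact Or.inr ⟨some k, by simpa using hk, h2, h3⟩
    · exact Or.inr ⟨none, by simp, h2, h3⟩

/-- **signed form, octaves and arc** -/
theorem winc_oct {D : Set ℂ} (hDb : Bornology.IsBounded D) (hD : D ⊆ {ζ | 0 ≤ ζ.im}) {m G : ℂ → ℂ}
    (hm : DiffContOnCl ℂ m D) (hG : DiffContOnCl ℂ G D) {u r ρ b₀ c A : ℝ} (hb₀ : 0 ≤ b₀)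
    (hr : 0 < r) (hρ : 0 < ρ) (hA : 0 ≤ A) {n : ℕ} {B : ℕ → ℝ} (hB : ∀ k, 0 ≤ B k)
    (h : ∀ w ∈ frontier D, -b₀ ≤ (G w).re ∨
      (∃ k < n, 2 ^ k * r ≤ ‖w - u‖ ∧ -(b₀ + B k) ≤ (G w).re) ∨
      (ρ ≤ ‖w - u‖ ∧ -(b₀ + A) ≤ (G w).re))
    (h2 : ∀ w ∈ frontier D, ‖m w‖ ≤ Real.exp (c + |(G w).re|)) {w : ℂ} (hw : w ∈ closure D) :
    -(b₀ + 2 * (‖w - u‖ / r) * (∑ k ∈ range n, B k * (1 / 2) ^ k + A * (r / ρ))) ≤ (G w).re ∧
    ‖m w‖ ≤ Real.exp (c + (G w).re + 2 * (b₀ + 2 * (‖w - u‖ / r) *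
      (∑ k ∈ range n, B k * (1 / 2) ^ k + A * (r / ρ)))) := by
  have key := winc hDb hD hm hG (u := u) (b₀ := b₀) (c := c) (s := insertNone (range n))
    (R := fun i => Option.elim i ρ fun k => 2 ^ k * r) (b := fun i => Option.elim i A B) hb₀
    ?_ ?_ ?_ h2 hw
  · rw [sum_oct] at key
    have e : 2 * (‖w - u‖ / r) * (∑ k ∈ range n, B k * (1 / 2) ^ k + A * (r / ρ)) =
        2 * ‖w - u‖ * (A / ρ + (∑ k ∈ range n, B k * (1 / 2) ^ k) / r) := by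
      field_simp
      ring
    rw [e]
    exact key
  · rintro (_ | k) _
    · exact hρ
    · simp only [Option.elim]; positivity
  · rintro (_ | k) _
    · exact hA
    · exact hB k
  · intro z hz
    rcases h z hz with h1 | ⟨k, hk, h2, h3⟩ | ⟨h2, h3⟩
    · exact Or.inl h1
    · exact Or.inr ⟨some k, by simpa using hk, h2, h3⟩
    · exact Or.inr ⟨none, by simp, h2, h3⟩

/-- **one function, octave bounds with a sub-exponential factor** : the profile `(1+k)^(-2)` and a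
growth `exp (C d^(-1/3))` (or the profile `(1+k)^(-3/2)` and `exp (C d^(-1/2))`) give octave bounds
`exp (C (k+1)^(3/4)) (1 + v_k)`; `Σ v_k b^k ≤ M₀`, `1/2 < b < 1`. -/
theorem wmax_prof {C b M₀ : ℝ} (hb : 1 / 2 < b) (hb1 : b < 1) : ∃ M ≥ 0,
    ∀ (D : Set ℂ) (g : ℂ → ℂ) (u r ρ b₀ A : ℝ) (n : ℕ) (v : ℕ → ℝ),
    Bornology.IsBounded D → D ⊆ {ζ | 0 ≤ ζ.im} → DiffContOnCl ℂ g D → 0 < r → 0 < ρ → 0 ≤ A →
    (∀ k, 0 ≤ v k) → ∑ k ∈ range n, v k * b ^ k ≤ M₀ →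
    (∀ w ∈ frontier D, ‖g w‖ ≤ Real.exp b₀ ∨
      (∃ k < n, 2 ^ k * r ≤ ‖w - u‖ ∧
        ‖g w‖ ≤ Real.exp (b₀ + Real.exp (C * ((k : ℝ) + 1) ^ (3 / 4 : ℝ)) * (1 + v k))) ∨
      (ρ ≤ ‖w - u‖ ∧ ‖g w‖ ≤ Real.exp (b₀ + A))) →
    ∀ w ∈ closure D, ‖g w‖ ≤ Real.exp (b₀ + 2 * (‖w - u‖ / r) * (M + A * (r / ρ))) := by
  obtain ⟨M, hM, H⟩ := sum_le C (M₀ := M₀) hb hb1
  refine ⟨M, hM, ?_⟩
  intro D g u r ρ b₀ A n v hDb hD hg hr hρ hA hv hs h w hw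
  have h1 := H n (fun j => v (j - 1)) (fun k => hv _) (by simpa using hs)
  simp only [add_tsub_cancel_right] at h1
  have h2 := wmax_oct hDb hD hg hr hρ hA
    (B := fun k => Real.exp (C * ((k : ℝ) + 1) ^ (3 / 4 : ℝ)) * (1 + v k))
    (fun k => mul_nonneg (Real.exp_pos _).le (by linarith [hv k])) h hw
  refine h2.trans (Real.exp_le_exp.mpr ?_)
  have h3 : 0 ≤ 2 * (‖w - u‖ / r) := by positivity
  have h4 := mul_le_mul_of_nonneg_left (add_le_add h1 (le_refl (A * (r / ρ)))) h3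
  linarith

/-- **signed form with a sub-exponential factor** -/
theorem winc_prof {C b M₀ : ℝ} (hb : 1 / 2 < b) (hb1 : b < 1) : ∃ M ≥ 0,
    ∀ (D : Set ℂ) (m G : ℂ → ℂ) (u r ρ b₀ c A : ℝ) (n : ℕ) (v : ℕ → ℝ),
    Bornology.IsBounded D → D ⊆ {ζ | 0 ≤ ζ.im} → DiffContOnCl ℂ m D → DiffContOnCl ℂ G D →
    0 ≤ b₀ → 0 < r → 0 < ρ → 0 ≤ A → (∀ k, 0 ≤ v k) → ∑ k ∈ range n, v k * b ^ k ≤ M₀ →
    (∀ w ∈ frontier D, -b₀ ≤ (G w).re ∨
      (∃ k < n, 2 ^ k * r ≤ ‖w - u‖ ∧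
        -(b₀ + Real.exp (C * ((k : ℝ) + 1) ^ (3 / 4 : ℝ)) * (1 + v k)) ≤ (G w).re) ∨
      (ρ ≤ ‖w - u‖ ∧ -(b₀ + A) ≤ (G w).re)) →
    (∀ w ∈ frontier D, ‖m w‖ ≤ Real.exp (c + |(G w).re|)) →
    ∀ w ∈ closure D, -(b₀ + 2 * (‖w - u‖ / r) * (M + A * (r / ρ))) ≤ (G w).re ∧
      ‖m w‖ ≤ Real.exp (c + (G w).re + 2 * (b₀ + 2 * (‖w - u‖ / r) * (M + A * (r / ρ)))) := by
  obtain ⟨M, hM, H⟩ := sum_le C (M₀ := M₀) hb hb1
  refine ⟨M, hM, ?_⟩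
  intro D m G u r ρ b₀ c A n v hDb hD hm hG hb₀ hr hρ hA hv hs h h2 w hw
  have h1 := H n (fun j => v (j - 1)) (fun k => hv _) (by simpa using hs)
  simp only [add_tsub_cancel_right] at h1
  obtain ⟨h5, h6⟩ := winc_oct hDb hD hm hG hb₀ hr hρ hA
    (B := fun k => Real.exp (C * ((k : ℝ) + 1) ^ (3 / 4 : ℝ)) * (1 + v k))
    (fun k => mul_nonneg (Real.exp_pos _).le (by linarith [hv k])) h h2 hw
  have h3 : 0 ≤ 2 * (‖w - u‖ / r) := by positivity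
  have h4 := mul_le_mul_of_nonneg_left (add_le_add h1 (le_refl (A * (r / ρ)))) h3
  exact ⟨by linarith, h6.trans (Real.exp_le_exp.mpr (by linarith))⟩

end Vale.Agent.P097.H146
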