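import Vale.Agent.P097.H146.Prof
import Vale.Agent.P097.H146.WMax

/-!
# P097, case [c] : export of the half disc

`half_disc` : the disc itself, with the three kinds of boundary points (`BdAlt`).
`half_inc` : two functions (signed form with octave dependent constants) on a compact of the tube.
-/

open Finset Complex Metric Set Filter Topology

namespace Vale.Agent.P097.H146

open Vale.Agent.P097.H226

/-- the three kinds of boundary points `p = φ ζ`, `ζ ∈ frontier (HD (2^n))` : base ray at scale one,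
base ray in the octave `k`, arc -/
def BdAlt (a : ℝ × ℝ) (V : Set (ℝ × ℝ)) (X c : ℝ) (n : ℕ) (w : ℕ → ℝ) (ζ : ℂ) (p : ℂ × ℂ) : Prop :=
  (∃ (y : ℝ × ℝ) (h : ℝ), ‖y‖ ≤ X ∧ c ≤ h ∧ h ≤ X ∧ p = pt y (h • a)) ∨
  (∃ k < n, 2 ^ k ≤ ‖ζ‖ ∧ ∃ (y : ℝ × ℝ) (h : ℝ), ‖y‖ ≤ X * 2 ^ (k + 1) ∧ 2 ^ k * w k / 2 ≤ h ∧
    h ≤ X * 2 ^ (k + 1) ∧ p = pt y (h • a)) ∨
  (‖ζ‖ = 2 ^ n ∧ ∃ v ∈ V, ∃ (y : ℝ × ℝ) (h t : ℝ), ‖y‖ ≤ X * 2 ^ n ∧
    (∀ k < n, 2 ^ k * w k / 2 ≤ h) ∧ c ≤ h ∧ h ≤ X * 2 ^ n ∧ 0 ≤ t ∧ t ≤ 2 ^ n ∧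
    p = pt y (h • a + t • v))

theorem dsc_alt {n : ℕ} {w : ℕ → ℝ} (hw : ∀ k, 0 ≤ w k) {c S X : ℝ} (hc : 0 < c)
    (hS : ∑ k ∈ range n, w k ≤ S) {x a v : ℝ × ℝ} (hX : ‖x‖ + ‖a‖ * S + ‖v‖ ≤ X)
    (hcX : c + S ≤ X) {V : Set (ℝ × ℝ)} (hv : v ∈ V) {z : ℂ} (hz : z ∈ frontier (HD (2 ^ n))) :
    BdAlt a V X c n w z (dsc n w c x a v z) := by
  have hS0 : 0 ≤ S := (Finset.sum_nonneg fun k _ => hw k).trans hS
  obtain ⟨z1, z2, z3⟩ := HD_frontier hz
  rcases eq_or_lt_of_le z1 with z4 | z4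
  · -- the arc
    right; right
    refine ⟨z4, v, hv, _, _, _, ?_, ?_, psi_low0 hw c z2, ?_, z2, ?_, dsc_eq_pt _ _ _ _ _ _ _⟩
    · exact foot_le (c := c) hw hS hX z2 (one_le_pow₀ one_le_two) z1
    · intro k hk
      refine psi_low hw hc.le z2 hk ?_
      rw [z4]
      exact pow_le_pow_right₀ one_le_two hk.le
    · have e3 := psi_up (n := n) hw c z2
      have e4 : (∑ k ∈ range n, w k) * ‖z‖ ≤ S * 2 ^ n := mul_le_mul hS z1 (norm_nonneg _) hS0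
      have e5 : (1 : ℝ) ≤ 2 ^ n := one_le_pow₀ one_le_two
      nlinarith
    · exact ((le_abs_self _).trans (Complex.abs_im_le_norm z)).trans z1
  · -- the diameter
    have z3 : z.im = 0 := z3.resolve_right z4.ne
    have e1 : dsc n w c x a v z = pt (x - (psi n w c z).im • a + z.re • v)
        ((psi n w c z).re • a) := by
      rw [dsc_eq_pt, z3, zero_smul, add_zero]
    rcases le_or_gt ‖z‖ 1 with h3 | h3
    · left
      refine ⟨_, _, ?_, psi_low0 hw c z2, ?_, e1⟩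
      · have e2 := foot_le (c := c) hw hS hX z2 le_rfl h3
        rwa [mul_one] at e2
      · have e3 := psi_up (n := n) hw c z2
        have e4 : (∑ k ∈ range n, w k) * ‖z‖ ≤ S * 1 := mul_le_mul hS h3 (norm_nonneg _) hS0
        linarith
    · right; left
      obtain ⟨k, hk1, hk2⟩ := exists_nat_pow_near h3.le (one_lt_two)
      have hk3 : k < n := by
        by_contra hcon
        push Not at hcon
        have h4 : (2 : ℝ) ^ n ≤ 2 ^ k := pow_le_pow_right₀ one_le_two hcon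
        exact absurd (h4.trans hk1) (not_le.mpr z4)
      refine ⟨k, hk3, hk1, _, _, ?_, psi_low hw hc.le z2 hk3 hk1, ?_, e1⟩
      · exact foot_le (c := c) hw hS hX z2 (one_le_pow₀ one_le_two) hk2.le
      · have e3 := psi_up (n := n) hw c z2
        have e4 : (∑ k ∈ range n, w k) * ‖z‖ ≤ S * 2 ^ (k + 1) :=
          mul_le_mul hS hk2.le (norm_nonneg _) hS0
        have e5 : (1 : ℝ) ≤ 2 ^ (k + 1) := one_le_pow₀ one_le_two
        nlinarith

/-- **the disc** through every point of a compact `W` of the tube over the open convex cone `K` -/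
theorem half_disc {K : Set (ℝ × ℝ)} (hK : IsOpen K) (hadd : ∀ y ∈ K, ∀ y' ∈ K, y + y' ∈ K)
    (hsm : ∀ s : ℝ, 0 < s → ∀ y ∈ K, s • y ∈ K) {a : ℝ × ℝ} (ha : a ∈ K) {W : Set (ℂ × ℂ)}
    (hW : IsCompact W) (hWK : ∀ z ∈ W, im2 z ∈ K) :
    ∃ β > 0, ∃ X ≥ 1, ∃ V : Set (ℝ × ℝ), IsCompact V ∧ V ⊆ K ∧
    ∀ (n : ℕ) (w : ℕ → ℝ) (c : ℝ), (∀ k, 0 ≤ w k) → 0 < c → c + ∑ k ∈ range n, w k ≤ β →
    ∀ z ∈ W, ∃ φ : ℂ → ℂ × ℂ, DiffContOnCl ℂ φ (HD (2 ^ n)) ∧ φ I = z ∧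
      MapsTo φ (closure (HD (2 ^ n))) {p | im2 p ∈ K ∧ ‖p‖ < 4 * X * 2 ^ n} ∧
      ∀ ζ ∈ frontier (HD (2 ^ n)), BdAlt a V X c n w ζ (φ ζ) := by
  have hcW : IsCompact (im2 '' W) := hW.image continuous_im2
  have hsub : im2 '' W ⊆ K := by rintro _ ⟨z, hz, rfl⟩; exact hWK z hz
  obtain ⟨δ, hδ, hδK⟩ := hcW.exists_cthickening_subset_open hK hsub
  set V := cthickening δ (im2 '' W) with hV
  have hVc : IsCompact V := hcW.cthickening
  obtain ⟨M1, hM1⟩ := hVc.isBounded.exists_norm_le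
  obtain ⟨M2, hM2⟩ := (hW.image continuous_re2).isBounded.exists_norm_le
  set β := δ / (‖a‖ + 1) with hβ
  have hβ0 : 0 < β := by positivity
  set X := 1 + |M2| + ‖a‖ * β + |M1| + 2 * β with hX
  have hX1 : 1 ≤ X := by
    have := abs_nonneg M1
    have := abs_nonneg M2
    have := mul_nonneg (norm_nonneg a) hβ0.le
    linarith
  refine ⟨β, hβ0, X, hX1, V, hVc, hδK, ?_⟩
  intro n w c hw hc hsum z hz
  have hS0 : 0 ≤ ∑ k ∈ range n, w k := Finset.sum_nonneg fun k _ => hw k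
  have hS : ∑ k ∈ range n, w k ≤ β := by linarith
  set v := im2 z - (psi n w c I).re • a with hv
  have hpsi := psi_I_le (n := n) hw c
  have hpsi0 := psi_low0 (n := n) hw c (ζ := I) (by simp)
  have hvV : v ∈ V := by
    apply mem_cthickening_of_dist_le v (im2 z) δ (im2 '' W) (mem_image_of_mem im2 hz)
    rw [hv, dist_eq_norm, sub_sub_cancel_left, norm_neg, norm_smul, Real.norm_of_nonneg (by linarith)]
    calc (psi n w c I).re * ‖a‖ ≤ β * (‖a‖ + 1) := by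
          apply mul_le_mul (by linarith) (by linarith [norm_nonneg a]) (norm_nonneg _) hβ0.le
      _ = δ := by rw [hβ]; field_simp
  have hvK : v ∈ K := hδK hvV
  have hvn : ‖v‖ ≤ |M1| := (hM1 v hvV).trans (le_abs_self _)
  have hxn : ‖re2 z‖ ≤ |M2| := (hM2 _ ⟨z, hz, rfl⟩).trans (le_abs_self _)
  have hX' : ‖re2 z‖ + ‖a‖ * β + ‖v‖ ≤ X := by
    rw [hX]
    linarith
  have h2n : (1 : ℝ) ≤ 2 ^ n := one_le_pow₀ one_le_two
  have hXβ : ‖a‖ * β + 2 * β ≤ X := by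
    rw [hX]
    have := abs_nonneg M1
    have := abs_nonneg M2
    linarith
  have hcX : c + β ≤ X := by
    have := mul_nonneg (norm_nonneg a) hβ0.le
    linarith
  have hvX : ‖v‖ ≤ X := by
    have := norm_nonneg (re2 z)
    have := mul_nonneg (norm_nonneg a) hβ0.le
    linarith
  refine ⟨dsc n w c (re2 z) a v, dsc_diff fun z hz => hz.2.le, dsc_I n w c a z, ?_, ?_⟩
  · intro ζ hζ
    obtain ⟨h3, h4⟩ := HD_closure hζ
    have e0 := psi_low0 (n := n) hw c h4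
    have e1 := psi_up (n := n) hw c h4
    have e2 : (∑ k ∈ range n, w k) * ‖ζ‖ ≤ (∑ k ∈ range n, w k) * 2 ^ n :=
      mul_le_mul_of_nonneg_left h3 hS0
    have e3 : (psi n w c ζ).re ≤ β * 2 ^ n := by nlinarith
    constructor
    · rw [im2_dsc]
      have h5 : (psi n w c ζ).re • a ∈ K := hsm _ (by linarith) a ha
      rcases eq_or_lt_of_le h4 with h6 | h6
      · rw [← h6, zero_smul, add_zero]; exact h5
      · exact hadd _ h5 _ (hsm _ h6 v hvK)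
    · rw [dsc_eq_pt]
      have h7 := foot_le (c := c) hw hS hX' h4 h2n h3
      have h8 : ‖(psi n w c ζ).re • a + ζ.im • v‖ ≤ β * 2 ^ n * ‖a‖ + 2 ^ n * ‖v‖ := by
        refine (norm_add_le _ _).trans (add_le_add ?_ ?_)
        · rw [norm_smul, Real.norm_of_nonneg (by linarith)]
          exact mul_le_mul_of_nonneg_right e3 (norm_nonneg _)
        · rw [norm_smul, Real.norm_of_nonneg h4]
          exact mul_le_mul_of_nonneg_right
            (((le_abs_self _).trans (Complex.abs_im_le_norm ζ)).trans h3) (norm_nonneg _)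
      have h9 : (‖a‖ * β + 2 * β) * 2 ^ n ≤ X * 2 ^ n := mul_le_mul_of_nonneg_right hXβ (by linarith)
      have h10 : 2 ^ n * ‖v‖ ≤ 2 ^ n * X := mul_le_mul_of_nonneg_left hvX (by linarith)
      have h11 : 0 < X * 2 ^ n := by positivity
      have h12 : 0 < β * 2 ^ n := by positivity
      refine (norm_pt_le _ _).trans_lt ?_
      nlinarith
  · intro ζ hζ
    exact dsc_alt hw hc hS hX' hcX hvV hζ

/-- **two functions, octave dependent constants, any radii** -/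
theorem winc3 {ι : Type*} {D : Set ℂ} (hDb : Bornology.IsBounded D) (hD : D ⊆ {ζ | 0 ≤ ζ.im})
    {m G : ℂ → ℂ} (hm : DiffContOnCl ℂ m D) (hG : DiffContOnCl ℂ G D) {u b₀ : ℝ} {s : Finset ι}
    {R b : ι → ℝ} (hb₀ : 0 ≤ b₀) (hR : ∀ i ∈ s, 0 < R i) (hb : ∀ i ∈ s, 0 ≤ b i)
    (h : ∀ w ∈ frontier D, (-b₀ ≤ (G w).re ∧ ‖m w‖ ≤ Real.exp (b₀ + |(G w).re|)) ∨
      ∃ i ∈ s, R i ≤ ‖w - u‖ ∧ -(b₀ + b i) ≤ (G w).re ∧
        ‖m w‖ ≤ Real.exp (b₀ + b i + |(G w).re|)) {w : ℂ} (hw : w ∈ closure D) :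
    -(b₀ + 2 * ‖w - u‖ * ∑ i ∈ s, b i / R i) ≤ (G w).re ∧
    ‖m w‖ ≤ Real.exp ((G w).re + 3 * (b₀ + 2 * ‖w - u‖ * ∑ i ∈ s, b i / R i)) := by
  have hcl : closure D ⊆ {ζ | 0 ≤ ζ.im} :=
    closure_minimal hD (isClosed_le continuous_const continuous_im)
  have hh := mjr_dc hR hD (u := u) (b₀ := b₀) (b := b)
  have hlow : ∀ z ∈ frontier D, -(mjr u b₀ s R b z).re ≤ (G z).re ∧
      ‖m z‖ ≤ Real.exp ((mjr u b₀ s R b z).re + |(G z).re|) := by
    intro z hz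
    have hz0 : 0 ≤ z.im := hcl (frontier_subset_closure hz)
    rcases h z hz with ⟨h2, h4⟩ | ⟨i, hi, h3, h4, h5⟩
    · have e := mjr_lower0 hR hb hz0 (u := u) (b₀ := b₀)
      exact ⟨by linarith, h4.trans (Real.exp_le_exp.mpr (by linarith))⟩
    · have e := mjr_lower hR hb hz0 hi h3 (b₀ := b₀)
      exact ⟨by linarith, h5.trans (Real.exp_le_exp.mpr (by linarith))⟩
  have hup := mjr_upper hR hb (hcl hw) (u := u) (b₀ := b₀)
  constructor
  · have hE : DiffContOnCl ℂ (fun z => Complex.exp (-G z)) D :=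
      ⟨hG.differentiableOn.neg.cexp, hG.continuousOn.neg.cexp⟩
    have h5 := major hDb hE hh (fun z hz => by
      rw [Complex.norm_exp, Complex.neg_re]
      exact Real.exp_le_exp.mpr (by linarith [(hlow z hz).1])) hw
    rw [Complex.norm_exp, Complex.neg_re, Real.exp_le_exp] at h5
    linarith
  · have hg : DiffContOnCl ℂ (fun z => G z + 3 * mjr u b₀ s R b z) D := by
      have := hh.const_smul (3 : ℂ)
      exact hG.add this
    have h5 := major hDb hm hg (fun z hz => by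
      obtain ⟨e1, e2⟩ := hlow z hz
      refine e2.trans (Real.exp_le_exp.mpr ?_)
      have e3 : (G z + 3 * mjr u b₀ s R b z).re = (G z).re + 3 * (mjr u b₀ s R b z).re := by simp
      rw [e3]
      have e5 := mjr_lower0 hR hb (hcl (frontier_subset_closure hz)) (u := u) (b₀ := b₀)
      rcases abs_cases (G z).re with ⟨e4, _⟩ | ⟨e4, _⟩ <;> rw [e4] <;> linarith) hw
    have e3 : (G w + 3 * mjr u b₀ s R b w).re = (G w).re + 3 * (mjr u b₀ s R b w).re := by simp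
    rw [e3] at h5
    exact h5.trans (Real.exp_le_exp.mpr (by linarith))

/-- **two functions on the tube** : `G`, `m` holomorphic on the tube over `K`, `Re G ≥ - B_k` and
`|m| ≤ exp (B_k + |Re G|)` over the base ray in the octave `k` and on the arc (with `A`) -/
theorem half_inc {K : Set (ℝ × ℝ)} (hK : IsOpen K) (hadd : ∀ y ∈ K, ∀ y' ∈ K, y + y' ∈ K)
    (hsm : ∀ s : ℝ, 0 < s → ∀ y ∈ K, s • y ∈ K) {a : ℝ × ℝ} (ha : a ∈ K) {W : Set (ℂ × ℂ)}
    (hW : IsCompact W) (hWK : ∀ z ∈ W, im2 z ∈ K) :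
    ∃ β > 0, ∃ X ≥ 1, ∃ V : Set (ℝ × ℝ), IsCompact V ∧ V ⊆ K ∧
    ∀ (n : ℕ) (w : ℕ → ℝ) (c : ℝ), (∀ k, 0 ≤ w k) → 0 < c → c + ∑ k ∈ range n, w k ≤ β →
    ∀ m G : ℂ × ℂ → ℂ, DifferentiableOn ℂ m {z | im2 z ∈ K ∧ ‖z‖ < 4 * X * 2 ^ n} →
    DifferentiableOn ℂ G {z | im2 z ∈ K ∧ ‖z‖ < 4 * X * 2 ^ n} →
    ∀ (B : ℕ → ℝ) (A : ℝ), (∀ k, 0 ≤ B k) → 0 ≤ A →
    (∀ (y : ℝ × ℝ) (h : ℝ), ‖y‖ ≤ X → c ≤ h → h ≤ X → -B 0 ≤ (G (pt y (h • a))).re ∧
      ‖m (pt y (h • a))‖ ≤ Real.exp (B 0 + |(G (pt y (h • a))).re|)) →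
    (∀ k < n, ∀ (y : ℝ × ℝ) (h : ℝ), ‖y‖ ≤ X * 2 ^ (k + 1) → 2 ^ k * w k / 2 ≤ h →
      h ≤ X * 2 ^ (k + 1) → -B (k + 1) ≤ (G (pt y (h • a))).re ∧
      ‖m (pt y (h • a))‖ ≤ Real.exp (B (k + 1) + |(G (pt y (h • a))).re|)) →
    (∀ v ∈ V, ∀ (y : ℝ × ℝ) (h t : ℝ), ‖y‖ ≤ X * 2 ^ n → (∀ k < n, 2 ^ k * w k / 2 ≤ h) → c ≤ h →
      h ≤ X * 2 ^ n → 0 ≤ t → t ≤ 2 ^ n → -A ≤ (G (pt y (h • a + t • v))).re ∧
      ‖m (pt y (h • a + t • v))‖ ≤ Real.exp (A + |(G (pt y (h • a + t • v))).re|)) →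
    ∀ z ∈ W,
      -(B 0 + 2 * (∑ k ∈ range n, B (k + 1) * (1 / 2) ^ k + A * (1 / 2) ^ n)) ≤ (G z).re ∧
      ‖m z‖ ≤ Real.exp ((G z).re +
        3 * (B 0 + 2 * (∑ k ∈ range n, B (k + 1) * (1 / 2) ^ k + A * (1 / 2) ^ n))) := by
  obtain ⟨β, hβ, X, hX, V, hV, hVK, H⟩ := half_disc hK hadd hsm ha hW hWK
  refine ⟨β, hβ, X, hX, V, hV, hVK, ?_⟩
  intro n w c hw hc hs m G hm hG B A hB hA h0 h1 h2 z hz
  obtain ⟨φ, hφ, hφI, hφm, hφb⟩ := H n w c hw hc hs z hz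
  have hm' : DiffContOnCl ℂ (fun ζ => m (φ ζ)) (HD (2 ^ n)) :=
    ⟨hm.comp hφ.differentiableOn (fun z hz => hφm (subset_closure hz)),
      hm.continuousOn.comp hφ.continuousOn hφm⟩
  have hG' : DiffContOnCl ℂ (fun ζ => G (φ ζ)) (HD (2 ^ n)) :=
    ⟨hG.comp hφ.differentiableOn (fun z hz => hφm (subset_closure hz)),
      hG.continuousOn.comp hφ.continuousOn hφm⟩
  have key := winc3 (ι := Option ℕ) HD_bdd (fun z hz => hz.2.le) hm' hG' (u := 0) (b₀ := B 0)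
    (s := insertNone (range n)) (R := fun i => Option.elim i ((2 : ℝ) ^ n) fun k => 2 ^ k * 1)
    (b := fun i => Option.elim i A fun k => B (k + 1)) (hB 0) ?_ ?_ ?_ (I_mem n)
  · rw [sum_oct (ρ := 2 ^ n) (r := 1) (A := A) n (fun k => B (k + 1))] at key
    simp only [hφI, Complex.ofReal_zero, sub_zero, Complex.norm_I, mul_one, div_one] at key
    have e : A / 2 ^ n + ∑ k ∈ range n, B (k + 1) * (1 / 2) ^ k =
        ∑ k ∈ range n, B (k + 1) * (1 / 2) ^ k + A * (1 / 2) ^ n := by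
      rw [add_comm, one_div, inv_pow, div_eq_mul_inv]
    rw [e] at key
    exact key
  · rintro (_ | k) _ <;> simp only [Option.elim] <;> positivity
  · rintro (_ | k) _
    · exact hA
    · exact hB _
  · intro ζ hζ
    simp only [Complex.ofReal_zero, sub_zero]
    rcases hφb ζ hζ with ⟨y, h, i1, i2, i3, e⟩ | ⟨k, hk, hk2, y, h, i1, i2, i3, e⟩ |
      ⟨hn, v, hv, y, h, t, i1, i2, i3, i4, i5, i6, e⟩
    · left
      rw [e]
      exact h0 y h i1 i2 i3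
    · right
      refine ⟨some k, by simpa using hk, by simpa using hk2, ?_⟩
      rw [e]
      obtain ⟨e1, e2⟩ := h1 k hk y h i1 i2 i3
      simp only [Option.elim]
      have := hB 0
      exact ⟨by linarith, e2.trans (Real.exp_le_exp.mpr (by linarith))⟩
    · right
      refine ⟨none, by simp, by simpa using hn.ge, ?_⟩
      rw [e]
      obtain ⟨e1, e2⟩ := h2 v hv y h t i1 i2 i3 i4 i5 i6
      simp only [Option.elim]
      have := hB 0
      exact ⟨by linarith, e2.trans (Real.exp_le_exp.mpr (by linarith))⟩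

end Vale.Agent.P097.H146
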