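import Vale.Agent.P097.H226.Major

/-!
# P097, case [c], row A5.HD : one half disc with a summable profile

`K` is an open convex cone of heights (the wide cone), `a ∈ K` a base direction. Every target `z` of a
compact `W` of the tube over `K` lies on the half disc
`D ζ = x + i ψ(ζ) a + ζ v`, `|ζ| ≤ 2^n`, `Im ζ ≥ 0`,
whose diameter lies over the base ray `ℝ₊ a`, at relative height `≥ ω_k / 4` in the `k`-th octave, and
whose arc lies in a fixed compact of the tube at the scale `2^n`. The cost is `c + Σ ω_k` (once).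
-/

open Finset Complex Metric Set Filter Topology

namespace Vale.Agent.P097.H146

open Vale.Agent.P097.H226

/-- heights -/
def im2 (z : ℂ × ℂ) : ℝ × ℝ := (z.1.im, z.2.im)
/-- feet -/
def re2 (z : ℂ × ℂ) : ℝ × ℝ := (z.1.re, z.2.re)
/-- the point with foot `y` and height `h` -/
def pt (y h : ℝ × ℝ) : ℂ × ℂ := ((y.1 : ℂ) + I * h.1, (y.2 : ℂ) + I * h.2)

theorem pt_re_im (z : ℂ × ℂ) : pt (re2 z) (im2 z) = z := by
  ext1 <;> simp only [pt, re2, im2] <;> rw [mul_comm, re_add_im]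

theorem im2_pt (y h : ℝ × ℝ) : im2 (pt y h) = h := by
  simp [im2, pt]

theorem re2_pt (y h : ℝ × ℝ) : re2 (pt y h) = y := by
  simp [re2, pt]

theorem norm_pt_le (y h : ℝ × ℝ) : ‖pt y h‖ ≤ ‖y‖ + ‖h‖ := by
  have h1 : ‖(y.1 : ℂ) + I * h.1‖ ≤ ‖y‖ + ‖h‖ := by
    refine (norm_add_le _ _).trans (add_le_add ?_ ?_)
    · rw [Complex.norm_real]; exact norm_fst_le y
    · rw [norm_mul, Complex.norm_I, one_mul, Complex.norm_real]; exact norm_fst_le h
  have h2 : ‖(y.2 : ℂ) + I * h.2‖ ≤ ‖y‖ + ‖h‖ := by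
    refine (norm_add_le _ _).trans (add_le_add ?_ ?_)
    · rw [Complex.norm_real]; exact norm_snd_le y
    · rw [norm_mul, Complex.norm_I, one_mul, Complex.norm_real]; exact norm_snd_le h
  exact max_le h1 h2

theorem continuous_im2 : Continuous im2 := by unfold im2; fun_prop
theorem continuous_re2 : Continuous re2 := by unfold re2; fun_prop

/-! ### the profile -/

theorem norm_den {R : ℝ} {ζ : ℂ} (hζ : 0 ≤ ζ.im) : R ≤ ‖(R : ℂ) - I * ζ‖ := by
  have h1 : ((R : ℂ) - I * ζ).re = R + ζ.im := by simp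
  have h2 := Complex.abs_re_le_norm ((R : ℂ) - I * ζ)
  rw [h1] at h2
  exact (le_trans (by linarith [le_abs_self (R + ζ.im)]) h2)

theorem pc_eq {R : ℝ} (hR : 0 < R) {ζ : ℂ} (hζ : 0 ≤ ζ.im) :
    pc R ζ = -I * ζ / ((R : ℂ) - I * ζ) := by
  have h := den_ne (R := R) (ζ := ζ) (by linarith)
  unfold pc
  field_simp
  ring

theorem norm_pc_le {R : ℝ} (hR : 0 < R) {ζ : ℂ} (hζ : 0 ≤ ζ.im) : ‖pc R ζ‖ ≤ ‖ζ‖ / R := by
  rw [pc_eq hR hζ, norm_div, norm_mul, norm_neg, Complex.norm_I, one_mul]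
  exact div_le_div_of_nonneg_left (norm_nonneg _) hR (norm_den hζ)

/-- the profile function -/
noncomputable def psi (n : ℕ) (w : ℕ → ℝ) (c : ℝ) (ζ : ℂ) : ℂ :=
  c + ∑ k ∈ range n, ((2 ^ k * w k : ℝ) : ℂ) * pc (2 ^ k) ζ

theorem psi_re (n : ℕ) (w : ℕ → ℝ) (c : ℝ) (ζ : ℂ) :
    (psi n w c ζ).re = c + ∑ k ∈ range n, 2 ^ k * w k * P (2 ^ k) ζ := by
  unfold psi P
  rw [Complex.add_re, Complex.ofReal_re, Complex.re_sum]
  congr 1
  apply Finset.sum_congr rfl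
  intro k _
  rw [Complex.re_ofReal_mul]

theorem psi_sub_le {n : ℕ} {w : ℕ → ℝ} (hw : ∀ k, 0 ≤ w k) (c : ℝ) {ζ : ℂ} (hζ : 0 ≤ ζ.im) :
    ‖psi n w c ζ - c‖ ≤ (∑ k ∈ range n, w k) * ‖ζ‖ := by
  unfold psi
  rw [add_sub_cancel_left, Finset.sum_mul]
  refine (norm_sum_le _ _).trans (Finset.sum_le_sum fun k _ => ?_)
  have h2 : (0 : ℝ) < 2 ^ k := by positivity
  rw [norm_mul, Complex.norm_real, Real.norm_of_nonneg (mul_nonneg h2.le (hw k))]
  calc 2 ^ k * w k * ‖pc (2 ^ k) ζ‖ ≤ 2 ^ k * w k * (‖ζ‖ / 2 ^ k) :=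
        mul_le_mul_of_nonneg_left (norm_pc_le h2 hζ) (mul_nonneg h2.le (hw k))
    _ = w k * ‖ζ‖ := by field_simp

theorem psi_low0 {n : ℕ} {w : ℕ → ℝ} (hw : ∀ k, 0 ≤ w k) (c : ℝ) {ζ : ℂ} (hζ : 0 ≤ ζ.im) :
    c ≤ (psi n w c ζ).re := by
  rw [psi_re]
  have : 0 ≤ ∑ k ∈ range n, 2 ^ k * w k * P (2 ^ k) ζ := by
    apply Finset.sum_nonneg
    intro k _
    have := P_nonneg (R := 2 ^ k) (by positivity) hζ
    have := hw k
    positivity
  linarith

theorem psi_low {n : ℕ} {w : ℕ → ℝ} (hw : ∀ k, 0 ≤ w k) {c : ℝ} (hc : 0 ≤ c) {ζ : ℂ}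
    (hζ : 0 ≤ ζ.im) {k : ℕ} (hk : k < n) (h : 2 ^ k ≤ ‖ζ‖) : 2 ^ k * w k / 2 ≤ (psi n w c ζ).re := by
  rw [psi_re]
  have h1 : 2 ^ k * w k * P (2 ^ k) ζ ≤ ∑ k ∈ range n, 2 ^ k * w k * P (2 ^ k) ζ := by
    apply Finset.single_le_sum (f := fun k => 2 ^ k * w k * P (2 ^ k) ζ) _
      (Finset.mem_range.mpr hk)
    intro i _
    have := P_nonneg (R := 2 ^ i) (by positivity) hζ
    have := hw i
    positivity
  have h2 := half_le_P (R := 2 ^ k) (by positivity) hζ h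
  have h3 : 0 ≤ 2 ^ k * w k := mul_nonneg (by positivity) (hw k)
  nlinarith

theorem psi_up {n : ℕ} {w : ℕ → ℝ} (hw : ∀ k, 0 ≤ w k) (c : ℝ) {ζ : ℂ} (hζ : 0 ≤ ζ.im) :
    (psi n w c ζ).re ≤ c + (∑ k ∈ range n, w k) * ‖ζ‖ := by
  have h1 := psi_sub_le (n := n) hw c hζ
  have h2 := Complex.re_le_norm (psi n w c ζ - c)
  simp only [sub_re, ofReal_re] at h2
  linarith

theorem psi_im {n : ℕ} {w : ℕ → ℝ} (hw : ∀ k, 0 ≤ w k) (c : ℝ) {ζ : ℂ} (hζ : 0 ≤ ζ.im) :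
    |(psi n w c ζ).im| ≤ (∑ k ∈ range n, w k) * ‖ζ‖ := by
  have h1 := psi_sub_le (n := n) hw c hζ
  have h2 := Complex.abs_im_le_norm (psi n w c ζ - c)
  simp only [sub_im, ofReal_im, sub_zero] at h2
  linarith

theorem pc_I {R : ℝ} (hR : 0 < R) : pc R I = ((1 / (R + 1) : ℝ) : ℂ) := by
  rw [pc_eq hR (by simp)]
  have h1 : (R : ℂ) - I * I = ((R + 1 : ℝ) : ℂ) := by
    rw [I_mul_I]; push_cast; ring
  rw [h1, neg_mul, I_mul_I, neg_neg]
  push_cast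
  rfl

theorem psi_I_im (n : ℕ) (w : ℕ → ℝ) (c : ℝ) : (psi n w c I).im = 0 := by
  unfold psi
  rw [Complex.add_im, Complex.ofReal_im, Complex.im_sum, zero_add]
  apply Finset.sum_eq_zero
  intro k _
  rw [pc_I (by positivity), ← Complex.ofReal_mul, Complex.ofReal_im]

theorem psi_diff {n : ℕ} {w : ℕ → ℝ} {c : ℝ} {D : Set ℂ} (hD : D ⊆ {ζ | 0 ≤ ζ.im}) :
    DiffContOnCl ℂ (psi n w c) D := by
  apply DifferentiableOn.diffContOnCl
  have hcl : closure D ⊆ {ζ | 0 ≤ ζ.im} :=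
    closure_minimal hD (isClosed_le continuous_const continuous_im)
  intro ζ hζ
  have h0 := hcl hζ
  simp only [mem_ofPred_eq] at h0
  unfold psi
  apply DifferentiableAt.differentiableWithinAt
  apply DifferentiableAt.const_add
  apply DifferentiableAt.fun_sum
  intro k _
  apply DifferentiableAt.const_mul
  have hR : (0 : ℝ) < 2 ^ k := by positivity
  exact ((pc_diff hR).differentiableAt
    ((isOpen_lt continuous_const continuous_im).mem_nhds (by simp only [mem_ofPred_eq]; linarith)))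

/-! ### the disc -/

/-- the disc with foot `x`, base direction `a`, wide direction `v` -/
noncomputable def dsc (n : ℕ) (w : ℕ → ℝ) (c : ℝ) (x a v : ℝ × ℝ) (ζ : ℂ) : ℂ × ℂ :=
  ((x.1 : ℂ) + I * a.1 * psi n w c ζ + v.1 * ζ, (x.2 : ℂ) + I * a.2 * psi n w c ζ + v.2 * ζ)

theorem im2_dsc (n : ℕ) (w : ℕ → ℝ) (c : ℝ) (x a v : ℝ × ℝ) (ζ : ℂ) :
    im2 (dsc n w c x a v ζ) = (psi n w c ζ).re • a + ζ.im • v := by
  ext1 <;> simp [im2, dsc] <;> ring

theorem re2_dsc (n : ℕ) (w : ℕ → ℝ) (c : ℝ) (x a v : ℝ × ℝ) (ζ : ℂ) :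
    re2 (dsc n w c x a v ζ) = x - (psi n w c ζ).im • a + ζ.re • v := by
  ext1 <;> simp [re2, dsc] <;> ring

theorem dsc_eq_pt (n : ℕ) (w : ℕ → ℝ) (c : ℝ) (x a v : ℝ × ℝ) (ζ : ℂ) :
    dsc n w c x a v ζ = pt (x - (psi n w c ζ).im • a + ζ.re • v)
      ((psi n w c ζ).re • a + ζ.im • v) := by
  rw [← im2_dsc (x := x), ← re2_dsc, pt_re_im]

theorem dsc_diff {n : ℕ} {w : ℕ → ℝ} {c : ℝ} {x a v : ℝ × ℝ} {D : Set ℂ}
    (hD : D ⊆ {ζ | 0 ≤ ζ.im}) : DiffContOnCl ℂ (dsc n w c x a v) D := by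
  have h := psi_diff (n := n) (w := w) (c := c) hD
  have hi : DiffContOnCl ℂ (fun ζ : ℂ => ζ) D := differentiable_id.diffContOnCl
  constructor
  · have h1 := h.differentiableOn
    have h2 := hi.differentiableOn
    unfold dsc
    exact ((h1.const_mul _).const_add _ |>.add (h2.const_mul _)).prodMk
      ((h1.const_mul _).const_add _ |>.add (h2.const_mul _))
  · have h1 := h.continuousOn
    have h2 := hi.continuousOn
    unfold dsc
    exact ((continuousOn_const.add (continuousOn_const.mul h1)).add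
      (continuousOn_const.mul h2)).prodMk
      ((continuousOn_const.add (continuousOn_const.mul h1)).add (continuousOn_const.mul h2))

theorem foot_le {n : ℕ} {w : ℕ → ℝ} (hw : ∀ k, 0 ≤ w k) {c S X : ℝ}
    (hS : ∑ k ∈ range n, w k ≤ S) {x a v : ℝ × ℝ} (hX : ‖x‖ + ‖a‖ * S + ‖v‖ ≤ X) {ζ : ℂ}
    (hζ : 0 ≤ ζ.im) {R : ℝ} (hR : 1 ≤ R) (h : ‖ζ‖ ≤ R) :
    ‖x - (psi n w c ζ).im • a + ζ.re • v‖ ≤ X * R := by
  have h1 := psi_im (n := n) hw c hζ
  have h2 := Complex.abs_re_le_norm ζ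
  have h3 : ‖x - (psi n w c ζ).im • a + ζ.re • v‖ ≤
      ‖x‖ + |(psi n w c ζ).im| * ‖a‖ + |ζ.re| * ‖v‖ := by
    refine (norm_add_le _ _).trans (add_le_add ((norm_sub_le _ _).trans ?_) ?_)
    · rw [norm_smul, Real.norm_eq_abs]
    · rw [norm_smul, Real.norm_eq_abs]
  have h4 : |(psi n w c ζ).im| ≤ S * R :=
    h1.trans (mul_le_mul hS h (norm_nonneg _)
      ((Finset.sum_nonneg fun k _ => hw k).trans hS))
  have h5 : |(psi n w c ζ).im| * ‖a‖ ≤ S * R * ‖a‖ := mul_le_mul_of_nonneg_right h4 (norm_nonneg _)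
  have h6 : |ζ.re| * ‖v‖ ≤ R * ‖v‖ := mul_le_mul_of_nonneg_right (h2.trans h) (norm_nonneg _)
  have h7 : ‖x‖ ≤ ‖x‖ * R := le_mul_of_one_le_right (norm_nonneg _) hR
  have h8 : (‖x‖ + ‖a‖ * S + ‖v‖) * R ≤ X * R := mul_le_mul_of_nonneg_right hX (by linarith)
  linarith

theorem half_one {n : ℕ} {w : ℕ → ℝ} (hw : ∀ k, 0 ≤ w k) {c S X : ℝ} (hc : 0 < c)
    (hS : ∑ k ∈ range n, w k ≤ S) {U : Set (ℂ × ℂ)} {f : ℂ × ℂ → ℂ}
    (hf : DifferentiableOn ℂ f U) {x a v : ℝ × ℝ} (hX : ‖x‖ + ‖a‖ * S + ‖v‖ ≤ X)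
    (hin : ∀ ζ : ℂ, ‖ζ‖ ≤ 2 ^ n → 0 ≤ ζ.im → dsc n w c x a v ζ ∈ U)
    {B : ℕ → ℝ} (hB : ∀ k, 0 ≤ B k) {A : ℝ} (hA : 0 ≤ A)
    (h0 : ∀ (y : ℝ × ℝ) (h : ℝ), ‖y‖ ≤ X → c ≤ h → h ≤ c + S → ‖f (pt y (h • a))‖ ≤ Real.exp (B 0))
    (h1 : ∀ k < n, ∀ (y : ℝ × ℝ) (h : ℝ), ‖y‖ ≤ X * 2 ^ (k + 1) → 2 ^ k * w k / 2 ≤ h →
      h ≤ c + S * 2 ^ (k + 1) → ‖f (pt y (h • a))‖ ≤ Real.exp (B (k + 1)))
    (h2 : ∀ (y : ℝ × ℝ) (h t : ℝ), ‖y‖ ≤ X * 2 ^ n → (∀ k < n, 2 ^ k * w k / 2 ≤ h) → c ≤ h →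
      h ≤ c + S * 2 ^ n → 0 ≤ t → t ≤ 2 ^ n → ‖f (pt y (h • a + t • v))‖ ≤ Real.exp A)
    {ζ : ℂ} (hζ : ζ ∈ closure (HD (2 ^ n))) :
    ‖f (dsc n w c x a v ζ)‖ ≤
      Real.exp (B 0 + 2 * ‖ζ‖ * (∑ k ∈ range n, B (k + 1) * (1 / 2) ^ k + A * (1 / 2) ^ n)) := by
  have hS0 : 0 ≤ S := (Finset.sum_nonneg fun k _ => hw k).trans hS
  have hsub : HD (2 ^ n) ⊆ {ζ | 0 ≤ ζ.im} := fun z hz => hz.2.le
  have hd := dsc_diff (n := n) (w := w) (c := c) (x := x) (a := a) (v := v) hsub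
  have hcl : ∀ z ∈ closure (HD (2 ^ n)), ‖z‖ ≤ 2 ^ n ∧ 0 ≤ z.im := fun z hz => HD_closure hz
  have hmaps : MapsTo (dsc n w c x a v) (closure (HD (2 ^ n))) U :=
    fun z hz => hin z (hcl z hz).1 (hcl z hz).2
  have hF : DiffContOnCl ℂ (fun ζ => f (dsc n w c x a v ζ)) (HD (2 ^ n)) :=
    ⟨hf.comp hd.differentiableOn (fun z hz => hmaps (subset_closure hz)),
      hf.continuousOn.comp hd.continuousOn hmaps⟩
  set b : ℕ → ℝ := fun k => if k = n + 1 then A else B k with hb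
  have hb0 : b 0 = B 0 := by simp [hb]
  have hbk : ∀ k < n, b (k + 1) = B (k + 1) := by
    intro k hk
    have : k + 1 ≠ n + 1 := by omega
    simp only [hb]
    rw [if_neg this]
  have hbn : b (n + 1) = A := by simp [hb]
  have hbpos : ∀ k, 0 ≤ b k := by
    intro k
    simp only [hb]
    split_ifs
    · exact hA
    · exact hB k
  have key := disc_major (r := 1) one_pos hF hbpos (n := n + 1) (fun z hz => ?_) hζ
  · rw [Finset.sum_range_succ, hb0, hbn, div_one,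
      Finset.sum_congr rfl (fun k hk => by rw [hbk k (Finset.mem_range.mp hk)])] at key
    exact key
  · obtain ⟨z1, z2, z3⟩ := HD_frontier hz
    rw [hb0]
    rcases eq_or_lt_of_le z1 with z4 | z4
    · -- the arc
      right
      refine ⟨n, by omega, by simp [z4], ?_⟩
      rw [hbn, dsc_eq_pt]
      have e2 := foot_le (c := c) hw hS hX z2 (one_le_pow₀ one_le_two) z1
      have e3 := psi_up (n := n) hw c z2
      have e4 : (∑ k ∈ range n, w k) * ‖z‖ ≤ S * 2 ^ n := mul_le_mul hS z1 (norm_nonneg _) hS0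
      have e5 : z.im ≤ 2 ^ n := ((le_abs_self _).trans (Complex.abs_im_le_norm z)).trans z1
      refine (h2 _ _ _ e2 (fun k hk => psi_low hw hc.le z2 hk ?_) (psi_low0 hw c z2) (by linarith)
        z2 e5).trans (Real.exp_le_exp.mpr (by linarith [hB 0]))
      rw [z4]
      exact pow_le_pow_right₀ one_le_two hk.le
    · -- the diameter
      have z3 : z.im = 0 := z3.resolve_right z4.ne
      have e1 : dsc n w c x a v z = pt (x - (psi n w c z).im • a + z.re • v)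
          ((psi n w c z).re • a) := by
        rw [dsc_eq_pt, z3, zero_smul, add_zero]
      rcases le_or_gt ‖z‖ 1 with h3 | h3
      · left
        rw [e1]
        have e2 := foot_le (c := c) hw hS hX z2 le_rfl h3
        rw [mul_one] at e2
        have e3 := psi_up (n := n) hw c z2
        have e4 : (∑ k ∈ range n, w k) * ‖z‖ ≤ S * 1 :=
          mul_le_mul hS h3 (norm_nonneg _) hS0
        exact h0 _ _ e2 (psi_low0 hw c z2) (by linarith)
      · right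
        obtain ⟨k, hk1, hk2⟩ := exists_nat_pow_near h3.le (one_lt_two)
        have hk3 : k < n := by
          by_contra hcon
          push Not at hcon
          have h4 : (2 : ℝ) ^ n ≤ 2 ^ k := pow_le_pow_right₀ one_le_two hcon
          exact absurd (h4.trans hk1) (not_le.mpr z4)
        refine ⟨k, by omega, by simpa using hk1, ?_⟩
        rw [hbk k hk3, e1]
        have e2 := foot_le (c := c) hw hS hX z2 (one_le_pow₀ one_le_two) hk2.le
        have e3 := psi_up (n := n) hw c z2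
        have e4 : (∑ k ∈ range n, w k) * ‖z‖ ≤ S * 2 ^ (k + 1) :=
          mul_le_mul hS hk2.le (norm_nonneg _) hS0
        refine (h1 k hk3 _ _ e2 (psi_low hw hc.le z2 hk3 hk1) (by linarith)).trans
          (Real.exp_le_exp.mpr (by linarith [hB 0]))

/-! ### all targets of a compact -/

/-- target = value of the disc at `i` -/
theorem dsc_I (n : ℕ) (w : ℕ → ℝ) (c : ℝ) (a : ℝ × ℝ) (z : ℂ × ℂ) :
    dsc n w c (re2 z) a (im2 z - (psi n w c I).re • a) I = z := by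
  rw [dsc_eq_pt, psi_I_im]
  simp only [zero_smul, sub_zero, I_re, add_zero, I_im, one_smul, add_sub_cancel]
  exact pt_re_im z

theorem psi_I_le {n : ℕ} {w : ℕ → ℝ} (hw : ∀ k, 0 ≤ w k) (c : ℝ) :
    (psi n w c I).re ≤ c + ∑ k ∈ range n, w k := by
  have h := psi_up (n := n) hw c (ζ := I) (by simp)
  rwa [Complex.norm_I, mul_one] at h

theorem I_mem (n : ℕ) : I ∈ closure (HD (2 ^ n)) := by
  have h2n : (1 : ℝ) ≤ 2 ^ n := one_le_pow₀ one_le_two
  have h1 : Tendsto (fun t : ℝ => (t : ℂ) * I) (𝓝[<] 1) (𝓝 (((1 : ℝ) : ℂ) * I)) :=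
    ((continuous_ofReal.mul continuous_const).tendsto 1).mono_left nhdsWithin_le_nhds
  rw [ofReal_one, one_mul] at h1
  refine mem_closure_of_tendsto h1 ?_
  filter_upwards [Ioo_mem_nhdsLT (show (0 : ℝ) < 1 by norm_num)] with t ht
  constructor
  · rw [norm_mul, Complex.norm_I, mul_one, Complex.norm_real, Real.norm_of_nonneg ht.1.le]
    exact ht.2.trans_le h2n
  · simpa using ht.1

/-- **ROW A5.HD** : `K` an open convex cone of heights (wide cone), `a ∈ K` a base direction, `W` a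
compact of the tube over `K`. There are a slope budget `β`, a constant `X` and a compact `V ⊆ K` of
directions with: for every summable profile `w` of total cost `c + ∑ w ≤ β`, bounds over the base
ray at relative height `≥ w_k / 2` in the `k`-th octave (`k < n`) and a bound on the arc at the
scale `2 ^ n` give a bound on `W`. -/
theorem half_main {K : Set (ℝ × ℝ)} (hK : IsOpen K) (hadd : ∀ y ∈ K, ∀ y' ∈ K, y + y' ∈ K)
    (hsm : ∀ s : ℝ, 0 < s → ∀ y ∈ K, s • y ∈ K) {a : ℝ × ℝ} (ha : a ∈ K) {W : Set (ℂ × ℂ)}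
    (hW : IsCompact W) (hWK : ∀ z ∈ W, im2 z ∈ K) :
    ∃ β > 0, ∃ X ≥ 1, ∃ V : Set (ℝ × ℝ), IsCompact V ∧ V ⊆ K ∧
    ∀ (n : ℕ) (w : ℕ → ℝ) (c : ℝ), (∀ k, 0 ≤ w k) → 0 < c → c + ∑ k ∈ range n, w k ≤ β →
    ∀ f : ℂ × ℂ → ℂ, DifferentiableOn ℂ f {z | im2 z ∈ K ∧ ‖z‖ < 4 * X * 2 ^ n} →
    ∀ (B : ℕ → ℝ) (A : ℝ), (∀ k, 0 ≤ B k) → 0 ≤ A →
    (∀ (y : ℝ × ℝ) (h : ℝ), ‖y‖ ≤ X → c ≤ h → h ≤ X → ‖f (pt y (h • a))‖ ≤ Real.exp (B 0)) →
    (∀ k < n, ∀ (y : ℝ × ℝ) (h : ℝ), ‖y‖ ≤ X * 2 ^ (k + 1) → 2 ^ k * w k / 2 ≤ h →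
      h ≤ X * 2 ^ (k + 1) → ‖f (pt y (h • a))‖ ≤ Real.exp (B (k + 1))) →
    (∀ v ∈ V, ∀ (y : ℝ × ℝ) (h t : ℝ), ‖y‖ ≤ X * 2 ^ n → (∀ k < n, 2 ^ k * w k / 2 ≤ h) → c ≤ h →
      h ≤ X * 2 ^ n → 0 ≤ t → t ≤ 2 ^ n → ‖f (pt y (h • a + t • v))‖ ≤ Real.exp A) →
    ∀ z ∈ W, ‖f z‖ ≤
      Real.exp (B 0 + 2 * (∑ k ∈ range n, B (k + 1) * (1 / 2) ^ k + A * (1 / 2) ^ n)) := by
  have hcW : IsCompact (im2 '' W) := hW.image continuous_im2
  have hsub : im2 '' W ⊆ K := by rintro _ ⟨z, hz, rfl⟩; exact hWK z hz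
  obtain ⟨δ, hδ, hδK⟩ := hcW.exists_cthickening_subset_open hK hsub
  set V := cthickening δ (im2 '' W) with hV
  have hVc : IsCompact V := hcW.cthickening
  obtain ⟨M1, hM1⟩ := hVc.isBounded.exists_norm_le
  obtain ⟨M2, hM2⟩ := (hW.image continuous_re2).isBounded.exists_norm_le
  set β := δ / (‖a‖ + 1) with hβ
  have hβ0 : 0 < β := by positivity
  set X := 1 + |M2| + ‖a‖ * β + |M1| + 2 * β with hX
  have hX1 : 1 ≤ X := by
    have := abs_nonneg M1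
    have := abs_nonneg M2
    have := mul_nonneg (norm_nonneg a) hβ0.le
    linarith
  refine ⟨β, hβ0, X, hX1, V, hVc, hδK, ?_⟩
  intro n w c hw hc hsum f hf B A hB hA h0 h1 h2 z hz
  have hS0 : 0 ≤ ∑ k ∈ range n, w k := Finset.sum_nonneg fun k _ => hw k
  have hS : ∑ k ∈ range n, w k ≤ β := by linarith
  set v := im2 z - (psi n w c I).re • a with hv
  have hpsi := psi_I_le (n := n) hw c
  have hpsi0 := psi_low0 (n := n) hw c (ζ := I) (by simp)
  have hvV : v ∈ V := by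
    apply mem_cthickening_of_dist_le v (im2 z) δ (im2 '' W) (mem_image_of_mem im2 hz)
    rw [hv, dist_eq_norm, sub_sub_cancel_left, norm_neg, norm_smul, Real.norm_of_nonneg (by linarith)]
    calc (psi n w c I).re * ‖a‖ ≤ β * (‖a‖ + 1) := by
          apply mul_le_mul (by linarith) (by linarith [norm_nonneg a]) (norm_nonneg _) hβ0.le
      _ = δ := by rw [hβ]; field_simp
  have hvK : v ∈ K := hδK hvV
  have hvn : ‖v‖ ≤ |M1| := (hM1 v hvV).trans (le_abs_self _)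
  have hxn : ‖re2 z‖ ≤ |M2| := (hM2 _ ⟨z, hz, rfl⟩).trans (le_abs_self _)
  have hX' : ‖re2 z‖ + ‖a‖ * β + ‖v‖ ≤ X := by
    rw [hX]
    linarith
  have h2n : (1 : ℝ) ≤ 2 ^ n := one_le_pow₀ one_le_two
  have hXβ : ‖a‖ * β + 2 * β ≤ X := by
    rw [hX]
    have := abs_nonneg M1
    have := abs_nonneg M2
    linarith
  have hvX : ‖v‖ ≤ X := by
    have := norm_nonneg (re2 z)
    have := mul_nonneg (norm_nonneg a) hβ0.le
    linarith
  have hin : ∀ ζ : ℂ, ‖ζ‖ ≤ 2 ^ n → 0 ≤ ζ.im →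
      dsc n w c (re2 z) a v ζ ∈ {z : ℂ × ℂ | im2 z ∈ K ∧ ‖z‖ < 4 * X * 2 ^ n} := by
    intro ζ h3 h4
    have e0 := psi_low0 (n := n) hw c h4
    have e1 := psi_up (n := n) hw c h4
    have e2 : (∑ k ∈ range n, w k) * ‖ζ‖ ≤ (∑ k ∈ range n, w k) * 2 ^ n :=
      mul_le_mul_of_nonneg_left h3 hS0
    have e3 : (psi n w c ζ).re ≤ β * 2 ^ n := by nlinarith
    constructor
    · rw [im2_dsc]
      have h5 : (psi n w c ζ).re • a ∈ K := hsm _ (by linarith) a ha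
      rcases eq_or_lt_of_le h4 with h6 | h6
      · rw [← h6, zero_smul, add_zero]; exact h5
      · exact hadd _ h5 _ (hsm _ h6 v hvK)
    · rw [dsc_eq_pt]
      have h7 := foot_le (c := c) hw hS hX' h4 h2n h3
      have h8 : ‖(psi n w c ζ).re • a + ζ.im • v‖ ≤ β * 2 ^ n * ‖a‖ + 2 ^ n * ‖v‖ := by
        refine (norm_add_le _ _).trans (add_le_add ?_ ?_)
        · rw [norm_smul, Real.norm_of_nonneg (by linarith)]
          exact mul_le_mul_of_nonneg_right e3 (norm_nonneg _)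
        · rw [norm_smul, Real.norm_of_nonneg h4]
          exact mul_le_mul_of_nonneg_right
            (((le_abs_self _).trans (Complex.abs_im_le_norm ζ)).trans h3) (norm_nonneg _)
      have h9 : (‖a‖ * β + 2 * β) * 2 ^ n ≤ X * 2 ^ n := mul_le_mul_of_nonneg_right hXβ (by linarith)
      have h10 : 2 ^ n * ‖v‖ ≤ 2 ^ n * X := mul_le_mul_of_nonneg_left hvX (by linarith)
      have h11 : 0 < X * 2 ^ n := by positivity
      have h12 : 0 < β * 2 ^ n := by positivity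
      refine (norm_pt_le _ _).trans_lt ?_
      nlinarith
  have hcX : c + β ≤ X := by
    have := mul_nonneg (norm_nonneg a) hβ0.le
    linarith
  have key := half_one (n := n) hw hc hS hf hX' hin hB hA ?_ ?_ ?_ (ζ := I) ?_
  · rw [dsc_I] at key
    simpa using key
  · intro y h i1 i2 i3
    exact h0 y h i1 i2 (by linarith)
  · intro k hk y h i1 i2 i3
    refine h1 k hk y h i1 i2 (i3.trans ?_)
    have : (1 : ℝ) ≤ 2 ^ (k + 1) := one_le_pow₀ one_le_two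
    nlinarith
  · intro y h t i1 i2 i3 i4 i5 i6
    refine h2 v hvV y h t i1 i2 i3 (i4.trans ?_) i5 i6
    nlinarith
  · exact I_mem n

end Vale.Agent.P097.H146
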