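import Vale.Agent.P097.H146.TD
import Vale.Agent.P097.H226.W.Defs

/-!
# P097, case [c], block (T) : the sum of `td_st` (profile, octaves, arc) in one literal
-/

open Finset Complex Metric Set Filter Topology

namespace Vale.Agent.P097.H146

open Vale.Agent.P097.H226 Vale.Agent.P097.H226.W

theorem s_poly : Summable (fun k : ℕ => ((k : ℝ) + 1) ^ 3 * (3 / 4 : ℝ) ^ k) := by
  have e1 : Summable (fun k : ℕ => (k : ℝ) ^ 3 * (3 / 4 : ℝ) ^ k) :=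
    summable_pow_mul_geometric_of_norm_lt_one 3 (by norm_num)
  have e2 := (summable_nat_add_iff 1).mpr e1
  refine (e2.mul_right (4 / 3)).congr fun k => ?_
  push_cast
  rw [pow_succ (3 / 4 : ℝ) k]
  ring

theorem s_exp (C : ℝ) :
    Summable (fun k : ℕ => Real.exp (C * ((k : ℝ) + 1) ^ (3 / 4 : ℝ)) * (1 / 2 : ℝ) ^ k) := by
  obtain ⟨M, hM, h⟩ := sub_exp C (b := 3 / 4) (by norm_num)
  refine Summable.of_nonneg_of_le (fun k => by positivity) h ?_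
  exact (summable_geometric_of_lt_one (by norm_num) (by norm_num)).mul_left M

/-- `x ^ N ≤ exp (2 N x ^ (1/2))` -/
theorem rpow_le_exp {x N : ℝ} (hx : 0 < x) (hN : 0 ≤ N) :
    x ^ N ≤ Real.exp (2 * N * x ^ (1 / 2 : ℝ)) := by
  rw [Real.rpow_def_of_pos hx]
  apply Real.exp_le_exp.mpr
  have := Real.log_le_rpow_div hx.le (ε := 1 / 2) (by norm_num)
  have h2 : Real.log x ≤ 2 * x ^ (1 / 2 : ℝ) := by
    calc Real.log x ≤ x ^ (1 / 2 : ℝ) / (1 / 2) := this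
      _ = 2 * x ^ (1 / 2 : ℝ) := by ring
  nlinarith

theorem two_half (k : ℕ) : ((2 : ℝ) ^ k) ^ (1 / 2 : ℝ) ≤ (3 / 2) ^ k := by
  have h : ((2 : ℝ) ^ k) ≤ ((3 / 2) ^ k) ^ 2 := by
    rw [← pow_mul, mul_comm, pow_mul]
    exact pow_le_pow_left₀ (by norm_num) (by norm_num) k
  calc ((2 : ℝ) ^ k) ^ (1 / 2 : ℝ) ≤ (((3 / 2 : ℝ) ^ k) ^ 2) ^ (1 / 2 : ℝ) :=
        Real.rpow_le_rpow (by positivity) h (by norm_num)
    _ = (3 / 2) ^ k := by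
        rw [← Real.rpow_natCast ((3 / 2 : ℝ) ^ k) 2, ← Real.rpow_mul (by positivity)]
        norm_num

/-- relative aperture in the octave `k` -/
noncomputable def qq (Q : ℝ) (k : ℕ) : ℝ := Q * ((k : ℝ) + 1) ^ (3 / 2 : ℝ)

theorem qq_pos {Q : ℝ} (hQ : 0 < Q) (k : ℕ) : 0 < qq Q k := by
  unfold qq; positivity

theorem qq_half {Q : ℝ} (hQ : 0 < Q) (k : ℕ) :
    (qq Q k) ^ (1 / 2 : ℝ) = Q ^ (1 / 2 : ℝ) * ((k : ℝ) + 1) ^ (3 / 4 : ℝ) := by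
  unfold qq
  rw [Real.mul_rpow hQ.le (by positivity), ← Real.rpow_mul (by positivity)]
  norm_num

theorem qq_sq (Q : ℝ) (k : ℕ) : (qq Q k) ^ 2 = Q ^ 2 * ((k : ℝ) + 1) ^ 3 := by
  unfold qq
  rw [mul_pow, ← Real.rpow_natCast (((k : ℝ) + 1) ^ (3 / 2 : ℝ)) 2,
    ← Real.rpow_mul (by positivity), ← Real.rpow_natCast ((k : ℝ) + 1) 3]
  norm_num

/-- logarithmic bound in the octave `k` -/
noncomputable def Bf (C₁ N X Q : ℝ) (k : ℕ) : ℝ :=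
  C₁ * (7 * X * 2 ^ k) ^ (1 / 2 : ℝ) * (qq Q k) ^ 2 +
    (C₁ * (qq Q k) ^ N + Real.exp (C₁ * (qq Q k) ^ (1 / 2 : ℝ)) + C₁ * Real.log (7 * X * 2 ^ k))

theorem Bf_nonneg {C₁ N X Q : ℝ} (hC : 0 ≤ C₁) (hX : 1 ≤ X) (hQ : 0 < Q) (k : ℕ) :
    0 ≤ Bf C₁ N X Q k := by
  have h1 : (1 : ℝ) ≤ 7 * X * 2 ^ k := by
    have : (1 : ℝ) ≤ 2 ^ k := one_le_pow₀ (by norm_num)
    nlinarith
  have h2 := Real.log_nonneg h1
  have h3 := (qq_pos hQ k).le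
  have h4 : 0 ≤ (qq Q k) ^ N := Real.rpow_nonneg h3 _
  have h5 : 0 ≤ (7 * X * 2 ^ k) ^ (1 / 2 : ℝ) := Real.rpow_nonneg (by linarith) _
  unfold Bf
  positivity

theorem Bf_summable {C₁ N X Q : ℝ} (hC : 0 ≤ C₁) (hN : 0 ≤ N) (hX : 1 ≤ X) (hQ : 0 < Q) :
    Summable (fun k : ℕ => Bf C₁ N X Q k * (1 / 2 : ℝ) ^ k) := by
  have hX0 : 0 < X := by linarith
  have h1 := s_poly.mul_left (C₁ * (7 * X) ^ (1 / 2 : ℝ) * Q ^ 2)
  have h2 := (s_exp (2 * N * Q ^ (1 / 2 : ℝ))).mul_left C₁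
  have h3 := s_exp (C₁ * Q ^ (1 / 2 : ℝ))
  have h4 : Summable (fun k : ℕ => (3 / 4 : ℝ) ^ k) :=
    summable_geometric_of_lt_one (by norm_num) (by norm_num)
  have h5 := h4.mul_left (C₁ * (2 * (7 * X) ^ (1 / 2 : ℝ)))
  refine Summable.of_nonneg_of_le (fun k => mul_nonneg (Bf_nonneg hC hX hQ k) (by positivity))
    (fun k => ?_) (((h1.add h2).add h3).add h5)
  have hp : (0 : ℝ) < (1 / 2) ^ k := by positivity
  have hq := qq_pos hQ k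
  have a1 : (7 * X * 2 ^ k) ^ (1 / 2 : ℝ) ≤ (7 * X) ^ (1 / 2 : ℝ) * (3 / 2) ^ k := by
    rw [Real.mul_rpow (by positivity) (by positivity)]
    exact mul_le_mul_of_nonneg_left (two_half k) (by positivity)
  have a2 : C₁ * (7 * X * 2 ^ k) ^ (1 / 2 : ℝ) * (qq Q k) ^ 2 * (1 / 2) ^ k ≤
      C₁ * (7 * X) ^ (1 / 2 : ℝ) * Q ^ 2 * (((k : ℝ) + 1) ^ 3 * (3 / 4) ^ k) := by
    rw [qq_sq]
    have e : (3 / 4 : ℝ) ^ k = (3 / 2) ^ k * (1 / 2) ^ k := by rw [← mul_pow]; norm_num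
    rw [e]
    calc C₁ * (7 * X * 2 ^ k) ^ (1 / 2 : ℝ) * (Q ^ 2 * ((k : ℝ) + 1) ^ 3) * (1 / 2) ^ k
        ≤ C₁ * ((7 * X) ^ (1 / 2 : ℝ) * (3 / 2) ^ k) * (Q ^ 2 * ((k : ℝ) + 1) ^ 3) *
          (1 / 2) ^ k := by gcongr
      _ = _ := by ring
  have a3 : C₁ * (qq Q k) ^ N * (1 / 2) ^ k ≤
      C₁ * (Real.exp (2 * N * Q ^ (1 / 2 : ℝ) * ((k : ℝ) + 1) ^ (3 / 4 : ℝ)) * (1 / 2) ^ k) := by
    have := rpow_le_exp hq hN
    rw [qq_half hQ k] at this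
    have e : 2 * N * (Q ^ (1 / 2 : ℝ) * ((k : ℝ) + 1) ^ (3 / 4 : ℝ)) =
      2 * N * Q ^ (1 / 2 : ℝ) * ((k : ℝ) + 1) ^ (3 / 4 : ℝ) := by ring
    rw [e] at this
    calc C₁ * (qq Q k) ^ N * (1 / 2) ^ k
        ≤ C₁ * Real.exp (2 * N * Q ^ (1 / 2 : ℝ) * ((k : ℝ) + 1) ^ (3 / 4 : ℝ)) * (1 / 2) ^ k := by
          gcongr
      _ = _ := by ring
  have a4 : Real.exp (C₁ * (qq Q k) ^ (1 / 2 : ℝ)) * (1 / 2) ^ k ≤
      Real.exp (C₁ * Q ^ (1 / 2 : ℝ) * ((k : ℝ) + 1) ^ (3 / 4 : ℝ)) * (1 / 2) ^ k := by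
    rw [qq_half hQ k]
    apply le_of_eq
    congr 2
    ring
  have a5 : C₁ * Real.log (7 * X * 2 ^ k) * (1 / 2) ^ k ≤
      C₁ * (2 * (7 * X) ^ (1 / 2 : ℝ)) * (3 / 4) ^ k := by
    have b1 := Real.log_le_rpow_div (x := 7 * X * 2 ^ k) (by positivity) (ε := 1 / 2) (by norm_num)
    have b2 : Real.log (7 * X * 2 ^ k) ≤ 2 * ((7 * X) ^ (1 / 2 : ℝ) * (3 / 2) ^ k) := by
      calc Real.log (7 * X * 2 ^ k) ≤ (7 * X * 2 ^ k) ^ (1 / 2 : ℝ) / (1 / 2) := b1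
        _ = 2 * (7 * X * 2 ^ k) ^ (1 / 2 : ℝ) := by ring
        _ ≤ _ := by linarith
    have e : (3 / 4 : ℝ) ^ k = (3 / 2) ^ k * (1 / 2) ^ k := by rw [← mul_pow]; norm_num
    rw [e]
    calc C₁ * Real.log (7 * X * 2 ^ k) * (1 / 2) ^ k
        ≤ C₁ * (2 * ((7 * X) ^ (1 / 2 : ℝ) * (3 / 2) ^ k)) * (1 / 2) ^ k := by gcongr
      _ = _ := by ring
  unfold Bf
  calc (C₁ * (7 * X * 2 ^ k) ^ (1 / 2 : ℝ) * (qq Q k) ^ 2 +
    (C₁ * (qq Q k) ^ N + Real.exp (C₁ * (qq Q k) ^ (1 / 2 : ℝ)) +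
      C₁ * Real.log (7 * X * 2 ^ k))) * (1 / 2) ^ k =
      C₁ * (7 * X * 2 ^ k) ^ (1 / 2 : ℝ) * (qq Q k) ^ 2 * (1 / 2) ^ k +
      C₁ * (qq Q k) ^ N * (1 / 2) ^ k + Real.exp (C₁ * (qq Q k) ^ (1 / 2 : ℝ)) * (1 / 2) ^ k +
      C₁ * Real.log (7 * X * 2 ^ k) * (1 / 2) ^ k := by ring
    _ ≤ _ := by linarith

/-- the wide cone -/
def KW (δ : ℝ) : Set (ℝ × ℝ) := {h | 0 < h.2 ∧ h.1 < δ * h.2}

theorem KW_open (δ : ℝ) : IsOpen (KW δ) :=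
  (isOpen_lt continuous_const continuous_snd).inter
    (isOpen_lt continuous_fst (continuous_const.mul continuous_snd))

theorem KW_add {δ : ℝ} : ∀ y ∈ KW δ, ∀ y' ∈ KW δ, y + y' ∈ KW δ := by
  rintro y ⟨h1, h2⟩ y' ⟨h3, h4⟩
  refine ⟨by simp only [Prod.snd_add]; linarith, ?_⟩
  simp only [Prod.snd_add, Prod.fst_add]
  linarith

theorem KW_smul {δ : ℝ} : ∀ s : ℝ, 0 < s → ∀ y ∈ KW δ, s • y ∈ KW δ := by
  rintro s hs y ⟨h1, h2⟩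
  refine ⟨by simp only [Prod.smul_snd, smul_eq_mul]; positivity, ?_⟩
  simp only [Prod.smul_snd, Prod.smul_fst, smul_eq_mul]
  nlinarith

theorem KW_a {δ : ℝ} (hδ : 0 < δ) : ((-1 : ℝ), (1 : ℝ)) ∈ KW δ := by
  refine ⟨by norm_num, ?_⟩
  show (-1 : ℝ) < δ * 1
  linarith

theorem im2_KW {δ : ℝ} {z : ℂ × ℂ} : im2 z ∈ KW δ ↔ z ∈ Wd δ := Iff.rfl

theorem pt_a (y : ℝ × ℝ) (h : ℝ) : pt y (h • ((-1 : ℝ), (1 : ℝ))) =
    ((y.1 : ℂ) - (h : ℂ) * I, (y.2 : ℂ) + (h : ℂ) * I) := by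
  unfold pt
  simp only [Prod.smul_mk, smul_eq_mul, mul_neg, mul_one, ofReal_neg]
  refine Prod.ext ?_ ?_
  · show (y.1 : ℂ) + -(I * (h : ℂ)) = (y.1 : ℂ) - (h : ℂ) * I
    ring
  · show (y.2 : ℂ) + I * (h : ℂ) = (y.2 : ℂ) + (h : ℂ) * I
    ring

theorem smul_pt (r : ℝ) (y h : ℝ × ℝ) : (r : ℂ) • pt y h = pt (r • y) (r • h) := by
  unfold pt
  ext <;> simp <;> ring

theorem smul_mem_Wd {δ r : ℝ} (hr : 0 < r) {z : ℂ × ℂ} (hz : z ∈ Wd δ) : (r : ℂ) • z ∈ Wd δ := by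
  have h1 := KW_smul r hr _ (im2_KW.mpr hz)
  have h2 : im2 ((r : ℂ) • z) = r • im2 z := by
    unfold im2
    refine Prod.ext ?_ ?_
    · show ((r : ℂ) * z.1).im = r * z.1.im
      simp
    · show ((r : ℂ) * z.2).im = r * z.2.im
      simp
  rw [← im2_KW, h2]
  exact h1

theorem mem_Bx_of_norm {S : ℝ} {z : ℂ × ℂ} (hz : ‖z‖ < S) : z ∈ Bx S := by
  have h2 := norm_fst_le z
  have h3 := norm_snd_le z
  have h4 := Complex.abs_re_le_norm z.1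
  have h5 := Complex.abs_im_le_norm z.1
  have h6 := Complex.abs_re_le_norm z.2
  have h7 := Complex.abs_im_le_norm z.2
  exact ⟨by linarith, by linarith, by linarith, by linarith⟩

theorem smul_mem_Bx {r S : ℝ} (hr : 0 < r) {z : ℂ × ℂ} (hz : r * ‖z‖ < S) :
    (r : ℂ) • z ∈ Bx S := by
  apply mem_Bx_of_norm
  rw [norm_smul, Complex.norm_real, Real.norm_of_nonneg hr.le]
  exact hz

theorem cone_mem {δ : ℝ} (hδ : 0 < δ) {V : Set (ℝ × ℝ)} (hV : V ⊆ KW δ) {h t : ℝ} {v : ℝ × ℝ}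
    (hh : 0 < h) (ht : 0 ≤ t) (hv : v ∈ V) : h • ((-1 : ℝ), (1 : ℝ)) + t • v ∈ KW δ := by
  rcases ht.eq_or_lt with h0 | h0
  · rw [← h0, zero_smul, add_zero]
    exact KW_smul h hh _ (KW_a hδ)
  · exact KW_add _ (KW_smul h hh _ (KW_a hδ)) _ (KW_smul t h0 v (hV hv))

/-- the arc compact -/
def Zc (V : Set (ℝ × ℝ)) (ω X L : ℝ) : Set (ℂ × ℂ) :=
  (fun q : (ℝ × ℝ) × (ℝ × (ℝ × (ℝ × ℝ))) =>
    pt q.1 (q.2.1 • ((-1 : ℝ), (1 : ℝ)) + q.2.2.1 • q.2.2.2)) ''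
    (closedBall (0 : ℝ × ℝ) (2 * X * L) ×ˢ (Icc (ω * L) (2 * X * L) ×ˢ (Icc 0 (2 * L) ×ˢ V)))

theorem Zc_compact {V : Set (ℝ × ℝ)} (hV : IsCompact V) (ω X L : ℝ) : IsCompact (Zc V ω X L) := by
  apply IsCompact.image
  · exact (isCompact_closedBall _ _).prod (isCompact_Icc.prod (isCompact_Icc.prod hV))
  · unfold pt
    fun_prop

theorem Zc_sub {δ : ℝ} (hδ : 0 < δ) {V : Set (ℝ × ℝ)} (hV : V ⊆ KW δ) {ω X L v₁ S : ℝ}
    (hv : ∀ v ∈ V, ‖v‖ ≤ v₁) (hv₁ : 0 ≤ v₁) (hω : 0 < ω) (hX : 1 ≤ X) (hL : 0 < L)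
    (hS : 16 * X * L * (1 + v₁) ≤ S) : Zc V ω X L ⊆ Bx S ∩ Wd δ := by
  rintro _ ⟨⟨y, h, t, v⟩, ⟨hy, hh, ht, hv'⟩, rfl⟩
  simp only at hy hh ht hv' ⊢
  rw [mem_closedBall, dist_zero_right] at hy
  have hX0 : 0 < X := by linarith
  have hh0 : 0 < h := lt_of_lt_of_le (by positivity) hh.1
  have hk := cone_mem hδ hV hh0 ht.1 hv'
  have hna : ‖((-1 : ℝ), (1 : ℝ))‖ ≤ 1 := by
    rw [Prod.norm_def]; simp
  have hXL : 0 < X * L := by positivity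
  have h3 : L * v₁ ≤ X * L * v₁ := by
    have : L ≤ X * L := by nlinarith
    exact mul_le_mul_of_nonneg_right this hv₁
  have h4 : 0 ≤ X * L * v₁ := by positivity
  have hS' : 16 * (X * L) + 16 * (X * L * v₁) ≤ S := by linarith
  refine ⟨?_, ?_⟩
  · have e1 : ‖h • ((-1 : ℝ), (1 : ℝ)) + t • v‖ ≤ 2 * X * L + 2 * L * v₁ := by
      refine (norm_add_le _ _).trans (add_le_add ?_ ?_)
      · rw [norm_smul, Real.norm_of_nonneg hh0.le]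
        calc h * ‖((-1 : ℝ), (1 : ℝ))‖ ≤ h * 1 := by gcongr
          _ ≤ 2 * X * L := by linarith [hh.2]
      · rw [norm_smul, Real.norm_of_nonneg ht.1]
        exact mul_le_mul ht.2 (hv v hv') (norm_nonneg _) (by positivity)
    have e2 : 2 * X * L + 2 * L * v₁ < S := by linarith
    have e3 : 2 * X * L < S := by linarith
    have e4 := norm_fst_le y
    have e5 := norm_snd_le y
    have e6 := norm_fst_le (h • ((-1 : ℝ), (1 : ℝ)) + t • v)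
    have e7 := norm_snd_le (h • ((-1 : ℝ), (1 : ℝ)) + t • v)
    rw [Real.norm_eq_abs] at e4 e5 e6 e7
    unfold pt
    refine ⟨?_, ?_, ?_, ?_⟩
    · simp only [add_re, ofReal_re, mul_re, I_re, zero_mul, ofReal_im, mul_zero, sub_zero,
        add_zero]
      linarith
    · simp only [add_im, ofReal_im, mul_im, I_re, zero_mul, I_im, one_mul, ofReal_re, zero_add]
      linarith
    · simp only [add_re, ofReal_re, mul_re, I_re, zero_mul, ofReal_im, mul_zero, sub_zero,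
        add_zero]
      linarith
    · simp only [add_im, ofReal_im, mul_im, I_re, zero_mul, I_im, one_mul, ofReal_re, zero_add]
      linarith
  · rw [← im2_KW, im2_pt]
    exact hk

theorem Zc_mem {V : Set (ℝ × ℝ)} {ω X L r : ℝ} (hω : 0 < ω) (hX : 0 < X) (hr : 0 < r) {n : ℕ}
    (hn1 : L ≤ 2 ^ n * r) (hn2 : 2 ^ n * r ≤ 2 * L) {v : ℝ × ℝ} (hv : v ∈ V) {y : ℝ × ℝ}
    {h t : ℝ} (i1 : ‖y‖ ≤ X * 2 ^ n) (i2 : ω * 2 ^ n ≤ h) (i3 : h ≤ X * 2 ^ n) (i4 : 0 ≤ t)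
    (i5 : t ≤ 2 ^ n) : (r : ℂ) • pt y (h • ((-1 : ℝ), (1 : ℝ)) + t • v) ∈ Zc V ω X L := by
  rw [smul_pt]
  refine ⟨(r • y, r * h, r * t, v), ⟨?_, ⟨?_, ?_⟩, ⟨?_, ?_⟩, hv⟩, ?_⟩
  · rw [mem_closedBall, dist_zero_right, norm_smul, Real.norm_of_nonneg hr.le]
    calc r * ‖y‖ ≤ r * (X * 2 ^ n) := by gcongr
      _ = X * (2 ^ n * r) := by ring
      _ ≤ X * (2 * L) := by gcongr
      _ = 2 * X * L := by ring
  · show ω * L ≤ r * h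
    calc ω * L ≤ ω * (2 ^ n * r) := by gcongr
      _ = r * (ω * 2 ^ n) := by ring
      _ ≤ r * h := by gcongr
  · show r * h ≤ 2 * X * L
    calc r * h ≤ r * (X * 2 ^ n) := by gcongr
      _ = X * (2 ^ n * r) := by ring
      _ ≤ X * (2 * L) := by gcongr
      _ = 2 * X * L := by ring
  · show 0 ≤ r * t
    positivity
  · show r * t ≤ 2 * L
    calc r * t ≤ r * 2 ^ n := by gcongr
      _ = 2 ^ n * r := by ring
      _ ≤ 2 * L := hn2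
  · simp only
    rw [smul_add, smul_smul, smul_smul]

/-- one lateral point -/
theorem lat_bd {C₁ N X Q : ℝ} (hC : 0 ≤ C₁) (hN : 0 ≤ N) (hX : 1 ≤ X) (hQ : 0 < Q)
    {v τ EE G e R h : ℝ} {k : ℕ} (hG : 1 ≤ G) (he : 0 < e) (hh : 0 < h) (hR1 : 1 ≤ R)
    (hτ : τ = C₁ * R ^ (1 / 2 : ℝ) * (R / h) ^ 2)
    (hEE : EE = C₁ * (R / h) ^ N + Real.exp (C₁ * (R / h) ^ (1 / 2 : ℝ)) + C₁ * Real.log R)
    (k1 : τ * e < 1 → v ≤ G * (τ * e)) (k2 : v ≤ G * Real.exp EE)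
    (hR : R ≤ 7 * X * 2 ^ k) (hq : R / h ≤ qq Q k) :
    v / (G * e) ≤ Real.exp (Bf C₁ N X Q k) := by
  have hR0 : 0 < R := by linarith
  have hRh : 0 < R / h := by positivity
  have hGe : 0 < G * e := by positivity
  have hlR := Real.log_nonneg hR1
  have hEE0 : 0 ≤ EE := by
    rw [hEE]; positivity
  have hτ0 : 0 ≤ τ := by rw [hτ]; positivity
  have hmain : v / (G * e) ≤ Real.exp (τ + EE) := by
    rw [div_le_iff₀ hGe, Real.exp_add]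
    have hτe : τ ≤ Real.exp τ := by linarith [Real.add_one_le_exp τ]
    have hE1 : 1 ≤ Real.exp EE := Real.one_le_exp hEE0
    rcases lt_or_ge (τ * e) 1 with hlt | hge
    · calc v ≤ G * (τ * e) := k1 hlt
        _ = τ * 1 * (G * e) := by ring
        _ ≤ Real.exp τ * Real.exp EE * (G * e) := by gcongr
    · calc v ≤ G * Real.exp EE := k2
        _ = G * Real.exp EE * 1 := by ring
        _ ≤ G * Real.exp EE * (τ * e) := by gcongr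
        _ = τ * Real.exp EE * (G * e) := by ring
        _ ≤ Real.exp τ * Real.exp EE * (G * e) := by gcongr
  refine hmain.trans (Real.exp_le_exp.mpr ?_)
  have hqk := qq_pos hQ k
  have hR7 : 0 < 7 * X * 2 ^ k := by positivity
  unfold Bf
  rw [hτ, hEE]
  gcongr

theorem pr_mul (k : ℕ) : pr k * ((k : ℝ) + 1) ^ (3 / 2 : ℝ) = 1 := by
  unfold pr
  rw [← Real.rpow_add (by positivity)]
  norm_num

/-- scaled function -/
noncomputable def scl (g : ℂ × ℂ → ℂ) (r c : ℝ) (z : ℂ × ℂ) : ℂ := (c : ℂ)⁻¹ * g ((r : ℂ) • z)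

theorem scl_norm {g : ℂ × ℂ → ℂ} {r c : ℝ} (hc : 0 < c) (z : ℂ × ℂ) :
    ‖scl g r c z‖ = ‖g ((r : ℂ) • z)‖ / c := by
  unfold scl
  rw [norm_mul, norm_inv, Complex.norm_real, Real.norm_of_nonneg hc.le, inv_mul_eq_div]

theorem scl_diff {g : ℂ × ℂ → ℂ} {r c δ S X : ℝ} {n : ℕ} (hr : 0 < r)
    (hg : DifferentiableOn ℂ g (Bx S ∩ Wd δ)) (hX : 4 * X * (2 ^ n * r) ≤ S) :
    DifferentiableOn ℂ (scl g r c) {z | im2 z ∈ KW δ ∧ ‖z‖ < 4 * X * 2 ^ n} := by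
  unfold scl
  apply DifferentiableOn.const_mul
  have hd : DifferentiableOn ℂ (fun z : ℂ × ℂ => (r : ℂ) • z)
      {z | im2 z ∈ KW δ ∧ ‖z‖ < 4 * X * 2 ^ n} := by fun_prop
  refine hg.comp hd ?_
  rintro z ⟨hz1, hz2⟩
  refine ⟨smul_mem_Bx hr ?_, smul_mem_Wd hr (im2_KW.mp hz1)⟩
  calc r * ‖z‖ < r * (4 * X * 2 ^ n) := by gcongr
    _ = 4 * X * (2 ^ n * r) := by ring
    _ ≤ S := hX

/-- hypotheses of `td_core` for one function -/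
structure Lt (S C₁ N r e G : ℝ) (g : ℂ × ℂ → ℂ) : Prop where
  hT : ∀ y x h : ℝ, 0 < h → |y| + |x| + h + r < S →
    C₁ * e * ((|y| + |x| + h + r) / r) ^ (1 / 2 : ℝ) * ((|y| + |x| + h + r) / h) ^ 2 < 1 →
    ‖g ((y : ℂ) - (h : ℂ) * I, (x : ℂ) + (h : ℂ) * I)‖ ≤
      G * (C₁ * e * ((|y| + |x| + h + r) / r) ^ (1 / 2 : ℝ) * ((|y| + |x| + h + r) / h) ^ 2)
  hA : ∀ y x h : ℝ, 0 < h → |y| + |x| + h + r < S →
    ‖g ((y : ℂ) - (h : ℂ) * I, (x : ℂ) + (h : ℂ) * I)‖ ≤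
      G * Real.exp (C₁ * ((|y| + |x| + h + r) / h) ^ N +
        Real.exp (C₁ * ((|y| + |x| + h + r) / h) ^ (1 / 2 : ℝ)) +
        C₁ * Real.log ((|y| + |x| + h + r) / r))

theorem Lt.bd {C₁ N X Q S r e G : ℝ} {g : ℂ × ℂ → ℂ} (H : Lt S C₁ N r e G g) (hC : 0 ≤ C₁)
    (hN : 0 ≤ N) (hX : 1 ≤ X) (hQ : 0 < Q) (hr : 0 < r) (hG : 1 ≤ G) (he : 0 < e)
    (k : ℕ) (y : ℝ × ℝ) (h : ℝ) (hh : 0 < h) (hR : |y.1| + |y.2| + h + 1 ≤ 7 * X * 2 ^ k)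
    (hQk : (|y.1| + |y.2| + h + 1) / h ≤ qq Q k) (hS : r * (|y.1| + |y.2| + h + 1) < S) :
    ‖scl g r (G * e) (pt y (h • ((-1 : ℝ), (1 : ℝ))))‖ ≤ Real.exp (Bf C₁ N X Q k) := by
  rw [scl_norm (by positivity)]
  set R : ℝ := |y.1| + |y.2| + h + 1 with hRdef
  have hR0 : 0 < R := by positivity
  have hR1 : 1 ≤ R := by
    have := abs_nonneg y.1
    have := abs_nonneg y.2
    linarith
  have hscale : |r * y.1| + |r * y.2| + r * h + r = r * R := by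
    rw [abs_mul, abs_mul, abs_of_pos hr, hRdef]; ring
  have e1 : (r * R) / r = R := by field_simp
  have e2 : (r * R) / (r * h) = R / h := by field_simp
  have hpt : (r : ℂ) • pt y (h • ((-1 : ℝ), (1 : ℝ))) =
      (((r * y.1 : ℝ) : ℂ) - ((r * h : ℝ) : ℂ) * I, ((r * y.2 : ℝ) : ℂ) +
        ((r * h : ℝ) : ℂ) * I) := by
    rw [smul_pt, smul_smul, pt_a]
    rfl
  have k1 := H.hT (r * y.1) (r * y.2) (r * h) (by positivity) (by rw [hscale]; exact hS)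
  have k2 := H.hA (r * y.1) (r * y.2) (r * h) (by positivity) (by rw [hscale]; exact hS)
  rw [hscale, e1, e2, ← hpt] at k1 k2
  have hex : C₁ * e * R ^ (1 / 2 : ℝ) * (R / h) ^ 2 =
    C₁ * R ^ (1 / 2 : ℝ) * (R / h) ^ 2 * e := by ring
  rw [hex] at k1
  exact lat_bd hC hN hX hQ hG he hh hR1 rfl rfl k1 k2 hR hQk

theorem Lt.bd0 {C₁ N X ω S r e G : ℝ} {g : ℂ × ℂ → ℂ} (H : Lt S C₁ N r e G g) (hC : 0 ≤ C₁)
    (hN : 0 ≤ N) (hX : 1 ≤ X) (hω : 0 < ω) (hr : 0 < r) (hG : 1 ≤ G) (he : 0 < e)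
    (hS : r * (7 * X * 2 ^ 0) < S) (y : ℝ × ℝ) (h : ℝ) (i1 : ‖y‖ ≤ X) (i2 : ω ≤ h)
    (i3 : h ≤ X) :
    ‖scl g r (G * e) (pt y (h • ((-1 : ℝ), (1 : ℝ))))‖ ≤
      Real.exp (Bf C₁ N X (7 * X / ω) 0) := by
  have j1 := (norm_fst_le y).trans i1
  have j2 := (norm_snd_le y).trans i1
  rw [Real.norm_eq_abs] at j1 j2
  have hX0 : 0 < X := by linarith
  have hh : 0 < h := by linarith
  have j3 : |y.1| + |y.2| + h + 1 ≤ 7 * X := by linarith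
  refine H.bd hC hN hX (by positivity) hr hG he 0 y h hh (by simpa using j3) ?_ ?_
  · unfold qq
    simp only [CharP.cast_eq_zero, zero_add, Real.one_rpow, mul_one]
    exact div_le_div₀ (by positivity) j3 hω i2
  · calc r * (|y.1| + |y.2| + h + 1) ≤ r * (7 * X * 2 ^ 0) := by
          gcongr; simpa using j3
      _ < S := hS

theorem Lt.bdk {C₁ N X ω S r e G : ℝ} {g : ℂ × ℂ → ℂ} (H : Lt S C₁ N r e G g) (hC : 0 ≤ C₁)
    (hN : 0 ≤ N) (hX : 1 ≤ X) (hω : 0 < ω) (hr : 0 < r) (hG : 1 ≤ G) (he : 0 < e) {k : ℕ}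
    (hS : r * (7 * X * 2 ^ k) < S) (y : ℝ × ℝ) (h : ℝ) (i1 : ‖y‖ ≤ X * 2 ^ (k + 1))
    (i2 : ω * pr k * 2 ^ k ≤ h) (i3 : h ≤ X * 2 ^ (k + 1)) :
    ‖scl g r (G * e) (pt y (h • ((-1 : ℝ), (1 : ℝ))))‖ ≤
      Real.exp (Bf C₁ N X (7 * X / ω) k) := by
  have j1 := (norm_fst_le y).trans i1
  have j2 := (norm_snd_le y).trans i1
  rw [Real.norm_eq_abs] at j1 j2
  have hX0 : 0 < X := by linarith
  have hpk := pr_pos k
  have h2k : (1 : ℝ) ≤ 2 ^ k := one_le_pow₀ (by norm_num)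
  have hh : 0 < h := lt_of_lt_of_le (by positivity) i2
  have j3 : |y.1| + |y.2| + h + 1 ≤ 7 * X * 2 ^ k := by
    rw [pow_succ] at j1 j2 i3
    nlinarith
  refine H.bd hC hN hX (by positivity) hr hG he k y h hh j3 ?_ ?_
  · calc (|y.1| + |y.2| + h + 1) / h ≤ (7 * X * 2 ^ k) / (ω * pr k * 2 ^ k) :=
          div_le_div₀ (by positivity) j3 (by positivity) i2
      _ = qq (7 * X / ω) k := by
        unfold qq
        rw [div_mul_eq_mul_div, div_eq_div_iff (by positivity) (by positivity)]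
        have := pr_mul k
        calc 7 * X * 2 ^ k * ω = 7 * X * 2 ^ k * ω * 1 := by ring
          _ = 7 * X * 2 ^ k * ω * (pr k * ((k : ℝ) + 1) ^ (3 / 2 : ℝ)) := by rw [this]
          _ = _ := by ring
  · calc r * (|y.1| + |y.2| + h + 1) ≤ r * (7 * X * 2 ^ k) := by gcongr
      _ < S := hS

theorem arc_bd {g : ℂ × ℂ → ℂ} {z : ℂ × ℂ} {A e G r : ℝ} (he : 0 < e) (hG : 1 ≤ G)
    (k1 : ‖g ((r : ℂ) • z)‖ ≤ Real.exp A) : ‖scl g r (G * e) z‖ ≤ Real.exp (A + max (Real.log e⁻¹) 0) := by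
  have hGe : 0 < G * e := by positivity
  rw [scl_norm hGe, div_le_iff₀ hGe]
  have k2 : Real.exp (-Real.log e) ≤ Real.exp (max (Real.log e⁻¹) 0) := by
    rw [← Real.log_inv]
    exact Real.exp_le_exp.mpr (le_max_left _ _)
  have k3 : Real.exp (-Real.log e) * e = 1 := by
    rw [Real.exp_neg, Real.exp_log he]; field_simp
  calc ‖g ((r : ℂ) • z)‖ ≤ Real.exp A := k1
    _ = Real.exp A * (Real.exp (-Real.log e) * e) * 1 := by rw [k3]; ring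
    _ ≤ Real.exp A * (Real.exp (max (Real.log e⁻¹) 0) * e) * G := by gcongr
    _ = Real.exp (A + max (Real.log e⁻¹) 0) * (G * e) := by rw [Real.exp_add]; ring

/-- **the sum of `td_st`** -/
theorem td_core {δ : ℝ} (hδ : 0 < δ) {W : Set (ℂ × ℂ)} (hW : IsCompact W) (hWd : W ⊆ Wd δ)
    {S : ℝ} (hS : 0 < S) :
    ∃ Z : Set (ℂ × ℂ), IsCompact Z ∧ Z ⊆ Bx S ∩ Wd δ ∧ ∃ r₀ > 0, ∀ C₁ N : ℝ, 0 ≤ C₁ → 0 ≤ N →
    ∃ M ≥ 0, ∀ g : ℂ × ℂ → ℂ, DifferentiableOn ℂ g (Bx S ∩ Wd δ) → ∀ r e A G : ℝ, 0 < r →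
    r ≤ r₀ → 0 < e → 0 ≤ A → 1 ≤ G → Lt S C₁ N r e G g → (∀ z ∈ Z, ‖g z‖ ≤ Real.exp A) →
    ∀ z ∈ W, (r : ℂ) • z ∈ Bx S ∩ Wd δ ∧
      ‖g ((r : ℂ) • z)‖ ≤ G * e * Real.exp (M + M * r * (A + max (Real.log e⁻¹) 0)) := by
  obtain ⟨ω, hω, X, hX, V, hV, hVK, H⟩ := half_gen (KW_open δ) KW_add KW_smul (KW_a hδ) hW
    (fun z hz => hWd hz)
  have hX0 : 0 < X := by linarith
  obtain ⟨v₀, hv₀⟩ := hV.isBounded.exists_norm_le
  obtain ⟨w₀, hw₀⟩ := hW.isBounded.exists_norm_le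
  set L : ℝ := S / (16 * X * (1 + |v₀|)) with hL
  have hL0 : 0 < L := by positivity
  have hLS : 16 * X * L * (1 + |v₀|) = S := by
    rw [hL]; field_simp
  have hLS1 : 16 * X * L ≤ S := by
    have h0 : 0 ≤ 16 * X * L := by positivity
    have h1 : 0 ≤ |v₀| := abs_nonneg _
    nlinarith
  refine ⟨Zc V ω X L, Zc_compact hV _ _ _, Zc_sub hδ hVK
    (fun v hv => (hv₀ v hv).trans (le_abs_self _)) (abs_nonneg _) hω hX hL0 hLS.le,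
    min (L / 2) (S / (2 * (|w₀| + 1))), by positivity, ?_⟩
  intro C₁ N hC hN
  have hQ0 : 0 < 7 * X / ω := by positivity
  have hsum := Bf_summable hC hN hX hQ0
  have hB0 := Bf_nonneg (N := N) hC hX hQ0
  have hT0 : 0 ≤ ∑' k : ℕ, Bf C₁ N X (7 * X / ω) k * (1 / 2 : ℝ) ^ k :=
    tsum_nonneg fun k => mul_nonneg (hB0 k) (by positivity)
  set T : ℝ := ∑' k : ℕ, Bf C₁ N X (7 * X / ω) k * (1 / 2 : ℝ) ^ k with hT
  refine ⟨Bf C₁ N X (7 * X / ω) 0 + 2 * T + 2 / L, by have := hB0 0; positivity, ?_⟩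
  intro g hg r e A G hr hr₀ he hA0 hG hLt hhZ z hz
  have hr1 : r ≤ L / 2 := hr₀.trans (min_le_left _ _)
  have hr2 : r ≤ S / (2 * (|w₀| + 1)) := hr₀.trans (min_le_right _ _)
  obtain ⟨m, hm1, hm2⟩ := exists_nat_pow_near (x := L / r) (y := (2 : ℝ))
    (by rw [le_div_iff₀ hr]; linarith) (by norm_num)
  have hn1 : L ≤ 2 ^ (m + 1) * r := by
    rw [div_lt_iff₀ hr] at hm2
    exact hm2.le
  have hm3 : (2 : ℝ) ^ m * r ≤ L := by
    rw [le_div_iff₀ hr] at hm1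
    exact hm1
  have hn2 : 2 ^ (m + 1) * r ≤ 2 * L := by
    rw [pow_succ]
    linarith
  have hGe : 0 < G * e := by positivity
  have hXL : 0 < X * L := by positivity
  have hXr : ∀ k : ℕ, k < m + 1 → r * (7 * X * 2 ^ k) < S := by
    intro k hk
    have h1 : (2 : ℝ) ^ k ≤ 2 ^ m := pow_le_pow_right₀ (by norm_num) (by omega)
    calc r * (7 * X * 2 ^ k) ≤ r * (7 * X * 2 ^ m) := by gcongr
      _ = 7 * X * (2 ^ m * r) := by ring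
      _ ≤ 7 * X * L := by gcongr
      _ < S := by linarith
  have key := H (m + 1) (scl g r (G * e)) (by omega) (scl_diff hr hg (by
      calc 4 * X * (2 ^ (m + 1) * r) ≤ 4 * X * (2 * L) := by gcongr
        _ ≤ S := by linarith)) (fun k => Bf C₁ N X (7 * X / ω) (k - 1)) (A + max (Real.log e⁻¹) 0)
    (fun k => hB0 _) (by positivity) (fun y h i1 i2 i3 => hLt.bd0 hC hN hX hω hr hG he
      (hXr 0 (by omega)) y h i1 i2 i3)
    (fun k hk y h i1 i2 i3 => hLt.bdk hC hN hX hω hr hG he (hXr k hk) y h i1 i2 i3)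
    (fun v hv y h t i1 i2 i3 i4 i5 => arc_bd he hG
      (hhZ _ (Zc_mem hω hX0 hr hn1 hn2 hv i1 i2 i3 i4 i5))) z hz
  simp only [Nat.zero_sub, Nat.add_sub_cancel] at key
  have hs : ∑ k ∈ range (m + 1), Bf C₁ N X (7 * X / ω) k * (1 / 2) ^ k ≤ T :=
    hsum.sum_le_tsum _ (fun k _ => mul_nonneg (hB0 k) (by positivity))
  refine ⟨⟨smul_mem_Bx hr ?_, smul_mem_Wd hr (hWd hz)⟩, ?_⟩
  · have h1 := hw₀ z hz
    have h2 : ‖z‖ ≤ |w₀| + 1 := by linarith [le_abs_self w₀]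
    have h3 : 0 < |w₀| + 1 := by positivity
    calc r * ‖z‖ ≤ S / (2 * (|w₀| + 1)) * (|w₀| + 1) := by gcongr
      _ = S / 2 := by field_simp
      _ < S := by linarith
  · rw [scl_norm hGe, div_le_iff₀ hGe] at key
    have h1 : (1 / 2 : ℝ) ^ (m + 1) ≤ r / L := by
      rw [one_div, inv_pow, inv_le_iff_one_le_mul₀ (by positivity), div_mul_eq_mul_div,
        le_div_iff₀ hL0]
      linarith
    have h2 : 0 ≤ A + max (Real.log e⁻¹) 0 := add_nonneg hA0 (le_max_right _ _)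
    have h3 : (A + max (Real.log e⁻¹) 0) * (1 / 2) ^ (m + 1) ≤ (A + max (Real.log e⁻¹) 0) * (r / L) :=
      mul_le_mul_of_nonneg_left h1 h2
    have h4 : 0 ≤ (Bf C₁ N X (7 * X / ω) 0 + 2 * T) * r * (A + max (Real.log e⁻¹) 0) := by
      have := hB0 0
      positivity
    have h5 : 2 / L * r * (A + max (Real.log e⁻¹) 0) = 2 * ((A + max (Real.log e⁻¹) 0) * (r / L)) := by
      ring
    have h6 : 0 < 2 / L := by positivity
    have h7 : Bf C₁ N X (7 * X / ω) 0 + 2 * (∑ k ∈ range (m + 1), Bf C₁ N X (7 * X / ω) k *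
        (1 / 2) ^ k + (A + max (Real.log e⁻¹) 0) * (1 / 2) ^ (m + 1)) ≤
        Bf C₁ N X (7 * X / ω) 0 + 2 * T + 2 / L +
        (Bf C₁ N X (7 * X / ω) 0 + 2 * T + 2 / L) * r * (A + max (Real.log e⁻¹) 0) := by
      nlinarith
    calc ‖g ((r : ℂ) • z)‖ ≤ _ := key
      _ ≤ Real.exp (Bf C₁ N X (7 * X / ω) 0 + 2 * T + 2 / L +
          (Bf C₁ N X (7 * X / ω) 0 + 2 * T + 2 / L) * r * (A + max (Real.log e⁻¹) 0)) * (G * e) :=
        mul_le_mul_of_nonneg_right (Real.exp_le_exp.mpr h7) hGe.le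
      _ = _ := by ring

end Vale.Agent.P097.H146
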