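import Vale.Agent.P097.H146.Disc

/-!
# P097, case [c], block (T) : near octaves with geometric growth, far octaves with `log (1/E)`

`half_gen` : `half_main` with the fixed profile `ω (k+1)^(-3/2)` and arbitrary octave bounds.
`td_half` : near octaves `k < k₀` : `|f| ≤ exp (C (k+1))`; far octaves: `|f| ≤ exp (Λ + exp (C (k+1)^(3/4)))`,
arc `|f| ≤ exp (Λ + A)`, `Λ 2^(-k₀) ≤ 1`, `A 2^(-n) ≤ 1` ⟹ `|f| ≤ M` on the compact `W` of the tube.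
-/

open Finset Complex Metric Set Filter Topology

namespace Vale.Agent.P097.H146

open Vale.Agent.P097.H226

/-- the profile of `half_gen` -/
noncomputable def prw (ω : ℝ) (n k : ℕ) : ℝ := if k + 1 = n then 4 * ω else 2 * ω * pr k

theorem prw_nonneg {ω : ℝ} (hω : 0 ≤ ω) (n k : ℕ) : 0 ≤ prw ω n k := by
  unfold prw
  have := pr_pos k
  split_ifs <;> positivity

theorem prw_low {ω : ℝ} (hω : 0 ≤ ω) (n k : ℕ) : 2 * ω * pr k ≤ prw ω n k := by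
  unfold prw
  have := pr_le_one k
  split_ifs
  · nlinarith
  · exact le_rfl

theorem prw_sum {β : ℝ} (hβ : 0 < β) (n : ℕ) :
    β / (8 * (∑' k, pr k + 1)) + ∑ k ∈ range n, prw (β / (8 * (∑' k, pr k + 1))) n k ≤ β := by
  set S := ∑' k, pr k with hS
  have hS0 : 0 ≤ S := tsum_nonneg fun k => (pr_pos k).le
  set ω := β / (8 * (S + 1)) with hω
  have hω0 : 0 < ω := by positivity
  have hωβ : ω * (S + 1) = β / 8 := by rw [hω]; field_simp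
  have h3 : ∑ k ∈ range n, prw ω n k ≤
      ∑ k ∈ range n, (2 * ω * pr k + if k = n - 1 then 4 * ω else 0) := by
    apply Finset.sum_le_sum
    intro k _
    unfold prw
    have := pr_pos k
    by_cases h : k + 1 = n
    · have h' : k = n - 1 := by omega
      rw [if_pos h, if_pos h']
      have : 0 ≤ 2 * ω * pr k := by positivity
      linarith
    · rw [if_neg h]
      split_ifs <;> linarith
  rw [Finset.sum_add_distrib, ← Finset.mul_sum, Finset.sum_ite_eq'] at h3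
  have h4 : ∑ k ∈ range n, pr k ≤ S :=
    pr_summable.sum_le_tsum _ (fun k _ => (pr_pos k).le)
  have h5 : (if n - 1 ∈ range n then 4 * ω else 0) ≤ 4 * ω := by
    split_ifs <;> linarith
  have h6 : 2 * ω * ∑ k ∈ range n, pr k ≤ 2 * ω * S :=
    mul_le_mul_of_nonneg_left h4 (by positivity)
  nlinarith

/-- **the disc with the fixed profile** : every boundary point is a base point (over the ray `ℝ₊ a`) of
scale one, a base point of relative height `≥ ω (k+1)^(-3/2)` in the octave `k`, or a point of the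
fixed arc compact at the scale `2^n` -/
theorem disc_gen {K : Set (ℝ × ℝ)} (hK : IsOpen K) (hadd : ∀ y ∈ K, ∀ y' ∈ K, y + y' ∈ K)
    (hsm : ∀ s : ℝ, 0 < s → ∀ y ∈ K, s • y ∈ K) {a : ℝ × ℝ} (ha : a ∈ K) {W : Set (ℂ × ℂ)}
    (hW : IsCompact W) (hWK : ∀ z ∈ W, im2 z ∈ K) :
    ∃ ω > 0, ∃ X ≥ 1, ∃ V : Set (ℝ × ℝ), IsCompact V ∧ V ⊆ K ∧
    ∀ n : ℕ, 1 ≤ n → ∀ z ∈ W, ∃ φ : ℂ → ℂ × ℂ, DiffContOnCl ℂ φ (HD (2 ^ n)) ∧ φ I = z ∧
      MapsTo φ (closure (HD (2 ^ n))) {p | im2 p ∈ K ∧ ‖p‖ < 4 * X * 2 ^ n} ∧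
      ∀ ζ ∈ frontier (HD (2 ^ n)),
        (∃ (y : ℝ × ℝ) (h : ℝ), ‖y‖ ≤ X ∧ ω ≤ h ∧ h ≤ X ∧ φ ζ = pt y (h • a)) ∨
        (∃ k < n, 2 ^ k ≤ ‖ζ‖ ∧ ∃ (y : ℝ × ℝ) (h : ℝ), ‖y‖ ≤ X * 2 ^ (k + 1) ∧
          ω * pr k * 2 ^ k ≤ h ∧ h ≤ X * 2 ^ (k + 1) ∧ φ ζ = pt y (h • a)) ∨
        (‖ζ‖ = 2 ^ n ∧ ∃ v ∈ V, ∃ (y : ℝ × ℝ) (h t : ℝ), ‖y‖ ≤ X * 2 ^ n ∧ ω * 2 ^ n ≤ h ∧
          h ≤ X * 2 ^ n ∧ 0 ≤ t ∧ t ≤ 2 ^ n ∧ φ ζ = pt y (h • a + t • v)) := by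
  obtain ⟨β, hβ, X, hX, V, hV, hVK, H⟩ := half_disc hK hadd hsm ha hW hWK
  have hS0 : 0 ≤ ∑' k, pr k := tsum_nonneg fun k => (pr_pos k).le
  set ω := β / (8 * (∑' k, pr k + 1)) with hω
  have hω0 : 0 < ω := by positivity
  refine ⟨ω, hω0, X, hX, V, hV, hVK, ?_⟩
  intro n hn z hz
  obtain ⟨φ, h1, h2, h3, h4⟩ := H n (prw ω n) ω (prw_nonneg hω0.le n) hω0 (prw_sum hβ n) z hz
  refine ⟨φ, h1, h2, h3, fun ζ hζ => ?_⟩
  rcases h4 ζ hζ with ⟨y, h, i1, i2, i3, e⟩ | ⟨k, hk, hk2, y, h, i1, i2, i3, e⟩ |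
    ⟨hn', v, hv, y, h, t, i1, i2, i3, i4, i5, i6, e⟩
  · exact Or.inl ⟨y, h, i1, i2, i3, e⟩
  · right; left
    refine ⟨k, hk, hk2, y, h, i1, le_trans ?_ i2, i3, e⟩
    have h5 := prw_low hω0.le n k
    have h6 : (0 : ℝ) < 2 ^ k := by positivity
    nlinarith
  · right; right
    refine ⟨hn', v, hv, y, h, t, i1, ?_, i4, i5, i6, e⟩
    have h5 := i2 (n - 1) (by omega)
    have h6 : prw ω n (n - 1) = 4 * ω := by
      unfold prw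
      rw [if_pos (by omega)]
    rw [h6] at h5
    have h7 : (2 : ℝ) ^ n = 2 * 2 ^ (n - 1) := by
      obtain ⟨m, rfl⟩ : ∃ m, n = m + 1 := ⟨n - 1, by omega⟩
      simp [pow_succ, mul_comm]
    rw [h7]
    linarith

/-- **one function, fixed profile, arbitrary octave bounds** -/
theorem half_gen {K : Set (ℝ × ℝ)} (hK : IsOpen K) (hadd : ∀ y ∈ K, ∀ y' ∈ K, y + y' ∈ K)
    (hsm : ∀ s : ℝ, 0 < s → ∀ y ∈ K, s • y ∈ K) {a : ℝ × ℝ} (ha : a ∈ K) {W : Set (ℂ × ℂ)}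
    (hW : IsCompact W) (hWK : ∀ z ∈ W, im2 z ∈ K) :
    ∃ ω > 0, ∃ X ≥ 1, ∃ V : Set (ℝ × ℝ), IsCompact V ∧ V ⊆ K ∧
    ∀ (n : ℕ) (f : ℂ × ℂ → ℂ), 1 ≤ n →
    DifferentiableOn ℂ f {z | im2 z ∈ K ∧ ‖z‖ < 4 * X * 2 ^ n} →
    ∀ (B : ℕ → ℝ) (A : ℝ), (∀ k, 0 ≤ B k) → 0 ≤ A →
    (∀ (y : ℝ × ℝ) (h : ℝ), ‖y‖ ≤ X → ω ≤ h → h ≤ X → ‖f (pt y (h • a))‖ ≤ Real.exp (B 0)) →
    (∀ k < n, ∀ (y : ℝ × ℝ) (h : ℝ), ‖y‖ ≤ X * 2 ^ (k + 1) → ω * pr k * 2 ^ k ≤ h →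
      h ≤ X * 2 ^ (k + 1) → ‖f (pt y (h • a))‖ ≤ Real.exp (B (k + 1))) →
    (∀ v ∈ V, ∀ (y : ℝ × ℝ) (h t : ℝ), ‖y‖ ≤ X * 2 ^ n → ω * 2 ^ n ≤ h →
      h ≤ X * 2 ^ n → 0 ≤ t → t ≤ 2 ^ n → ‖f (pt y (h • a + t • v))‖ ≤ Real.exp A) →
    ∀ z ∈ W, ‖f z‖ ≤
      Real.exp (B 0 + 2 * (∑ k ∈ range n, B (k + 1) * (1 / 2) ^ k + A * (1 / 2) ^ n)) := by
  obtain ⟨ω, hω, X, hX, V, hV, hVK, H⟩ := disc_gen hK hadd hsm ha hW hWK
  refine ⟨ω, hω, X, hX, V, hV, hVK, ?_⟩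
  intro n f hn hf B A hB hA h0 h1 h2 z hz
  obtain ⟨φ, hφ, hφI, hφm, hφb⟩ := H n hn z hz
  have hf' : DiffContOnCl ℂ (fun ζ => f (φ ζ)) (HD (2 ^ n)) :=
    ⟨hf.comp hφ.differentiableOn (fun z hz => hφm (subset_closure hz)),
      hf.continuousOn.comp hφ.continuousOn hφm⟩
  have key := wmax (ι := Option ℕ) HD_bdd (fun z hz => hz.2.le) hf' (u := 0) (b₀ := B 0)
    (s := insertNone (range n)) (R := fun i => Option.elim i ((2 : ℝ) ^ n) fun k => 2 ^ k * 1)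
    (b := fun i => Option.elim i A fun k => B (k + 1)) ?_ ?_ ?_ (I_mem n)
  · rw [sum_oct (ρ := 2 ^ n) (r := 1) (A := A) n (fun k => B (k + 1))] at key
    simp only [hφI, Complex.ofReal_zero, sub_zero, Complex.norm_I, mul_one, div_one] at key
    have e : A / 2 ^ n + ∑ k ∈ range n, B (k + 1) * (1 / 2) ^ k =
        ∑ k ∈ range n, B (k + 1) * (1 / 2) ^ k + A * (1 / 2) ^ n := by
      rw [add_comm, one_div, inv_pow, div_eq_mul_inv]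
    rw [e] at key
    exact key
  · rintro (_ | k) _ <;> simp only [Option.elim] <;> positivity
  · rintro (_ | k) _
    · exact hA
    · exact hB _
  · intro ζ hζ
    simp only [Complex.ofReal_zero, sub_zero]
    rcases hφb ζ hζ with ⟨y, h, i1, i2, i3, e⟩ | ⟨k, hk, hk2, y, h, i1, i2, i3, e⟩ |
      ⟨hn', v, hv, y, h, t, i1, i2, i3, i4, i5, e⟩
    · left
      rw [e]
      exact h0 y h i1 i2 i3
    · right
      refine ⟨some k, by simpa using hk, by simpa using hk2, ?_⟩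
      rw [e]
      simp only [Option.elim]
      have := hB 0
      exact (h1 k hk y h i1 i2 i3).trans (Real.exp_le_exp.mpr (by linarith))
    · right
      refine ⟨none, by simp, by simpa using hn'.ge, ?_⟩
      rw [e]
      simp only [Option.elim]
      have := hB 0
      exact (h2 v hv y h t i1 i2 i3 i4 i5).trans (Real.exp_le_exp.mpr (by linarith))

theorem sum_far (k₀ n : ℕ) :
    ∑ k ∈ range n, (if k < k₀ then 0 else (1 / 2 : ℝ) ^ k) ≤ 2 * (1 / 2) ^ k₀ := by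
  have h : ∀ n : ℕ, ∑ k ∈ range n, (if k < k₀ then 0 else (1 / 2 : ℝ) ^ k) ≤
      2 * (1 / 2) ^ k₀ - 2 * (1 / 2) ^ (max n k₀) := by
    intro n
    induction n with
    | zero => simp
    | succ n ih =>
      rw [Finset.sum_range_succ]
      split_ifs with h
      · rw [max_eq_right (by omega : n ≤ k₀)] at ih
        rw [max_eq_right (by omega : n + 1 ≤ k₀)]
        linarith
      · rw [max_eq_left (by omega : k₀ ≤ n)] at ih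
        rw [max_eq_left (by omega : k₀ ≤ n + 1), pow_succ]
        linarith
  have h1 := h n
  have h2 : (0 : ℝ) ≤ 2 * (1 / 2) ^ (max n k₀) := by positivity
  linarith

/-- **near and far octaves** -/
theorem td_half {K : Set (ℝ × ℝ)} (hK : IsOpen K) (hadd : ∀ y ∈ K, ∀ y' ∈ K, y + y' ∈ K)
    (hsm : ∀ s : ℝ, 0 < s → ∀ y ∈ K, s • y ∈ K) {a : ℝ × ℝ} (ha : a ∈ K) {W : Set (ℂ × ℂ)}
    (hW : IsCompact W) (hWK : ∀ z ∈ W, im2 z ∈ K) :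
    ∃ ω > 0, ∃ X ≥ 1, ∃ V : Set (ℝ × ℝ), IsCompact V ∧ V ⊆ K ∧ ∀ C : ℝ, 0 ≤ C → ∃ M ≥ 0,
    ∀ (n k₀ : ℕ) (f : ℂ × ℂ → ℂ), 1 ≤ n →
    DifferentiableOn ℂ f {z | im2 z ∈ K ∧ ‖z‖ < 4 * X * 2 ^ n} →
    ∀ Λ A : ℝ, 0 ≤ Λ → 0 ≤ A → Λ * (1 / 2) ^ k₀ ≤ 1 → A * (1 / 2) ^ n ≤ 1 → k₀ ≤ n →
    (∀ (y : ℝ × ℝ) (h : ℝ), ‖y‖ ≤ X → ω ≤ h → h ≤ X → ‖f (pt y (h • a))‖ ≤ Real.exp C) →
    (∀ k < n, ∀ (y : ℝ × ℝ) (h : ℝ), ‖y‖ ≤ X * 2 ^ (k + 1) → ω * pr k * 2 ^ k ≤ h →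
      h ≤ X * 2 ^ (k + 1) → ‖f (pt y (h • a))‖ ≤ Real.exp (C * ((k : ℝ) + 1) +
        Real.exp (C * ((k : ℝ) + 1) ^ (3 / 4 : ℝ)) + if k < k₀ then 0 else Λ)) →
    (∀ v ∈ V, ∀ (y : ℝ × ℝ) (h t : ℝ), ‖y‖ ≤ X * 2 ^ n → ω * 2 ^ n ≤ h →
      h ≤ X * 2 ^ n → 0 ≤ t → t ≤ 2 ^ n → ‖f (pt y (h • a + t • v))‖ ≤ Real.exp (Λ + A)) →
    ∀ z ∈ W, ‖f z‖ ≤ M := by
  obtain ⟨ω, hω, X, hX, V, hV, hVK, H⟩ := half_gen hK hadd hsm ha hW hWK
  refine ⟨ω, hω, X, hX, V, hV, hVK, ?_⟩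
  intro C hC
  obtain ⟨M₁, hM₁, h₁⟩ := sum_le C (b := 3 / 4) (M₀ := 0) (by norm_num) (by norm_num)
  have hlin : Summable (fun k : ℕ => ((k : ℝ) + 1) * (1 / 2 : ℝ) ^ k) := by
    have e1 : Summable (fun k : ℕ => (k : ℝ) ^ 1 * (1 / 2 : ℝ) ^ k) :=
      summable_pow_mul_geometric_of_norm_lt_one 1 (by norm_num)
    have e2 : Summable (fun k : ℕ => (1 / 2 : ℝ) ^ k) :=
      summable_geometric_of_lt_one (by norm_num) (by norm_num)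
    refine (e1.add e2).congr fun k => ?_
    rw [pow_one]; ring
  set T := ∑' k : ℕ, ((k : ℝ) + 1) * (1 / 2 : ℝ) ^ k with hT
  have hT0 : 0 ≤ T := tsum_nonneg fun k => by positivity
  refine ⟨Real.exp (C + 2 * (C * T + M₁ + 2 + 2)), (Real.exp_pos _).le, ?_⟩
  intro n k₀ f hn hf Λ A hΛ hA hΛk hAn hk₀n h0 h1 h2 z hz
  set B : ℕ → ℝ := fun k => if k = 0 then C else
    C * k + Real.exp (C * (k : ℝ) ^ (3 / 4 : ℝ)) + (if k - 1 < k₀ then 0 else Λ) with hB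
  have hB0 : ∀ k, 0 ≤ B k := by
    intro k
    simp only [hB]
    split_ifs <;> positivity
  have hBk : ∀ k : ℕ, B (k + 1) = C * ((k : ℝ) + 1) + Real.exp (C * ((k : ℝ) + 1) ^ (3 / 4 : ℝ)) +
      (if k < k₀ then 0 else Λ) := by
    intro k
    simp only [hB]
    rw [if_neg (by omega)]
    simp
  have key := H n f hn hf B (Λ + A) hB0 (by positivity) ?_ ?_ h2 z hz
  · refine key.trans (Real.exp_le_exp.mpr ?_)
    have e0 : B 0 = C := by simp [hB]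
    have e1 : ∑ k ∈ range n, B (k + 1) * (1 / 2) ^ k ≤ C * T + M₁ + 2 := by
      have e2 : ∑ k ∈ range n, B (k + 1) * (1 / 2 : ℝ) ^ k =
          C * ∑ k ∈ range n, ((k : ℝ) + 1) * (1 / 2) ^ k +
          ∑ k ∈ range n, Real.exp (C * ((k : ℝ) + 1) ^ (3 / 4 : ℝ)) * (1 + 0) * (1 / 2) ^ k +
          Λ * ∑ k ∈ range n, (if k < k₀ then 0 else (1 / 2 : ℝ) ^ k) := by
        rw [Finset.mul_sum, Finset.mul_sum, ← Finset.sum_add_distrib, ← Finset.sum_add_distrib]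
        apply Finset.sum_congr rfl
        intro k _
        rw [hBk k]
        split_ifs <;> ring
      rw [e2]
      have e3 : ∑ k ∈ range n, ((k : ℝ) + 1) * (1 / 2) ^ k ≤ T :=
        hlin.sum_le_tsum _ (fun k _ => by positivity)
      have e4 := h₁ n (fun _ => 0) (fun _ => le_rfl) (by simp)
      have e5 := sum_far k₀ n
      have e6 : Λ * ∑ k ∈ range n, (if k < k₀ then 0 else (1 / 2 : ℝ) ^ k) ≤
          Λ * (2 * (1 / 2) ^ k₀) := mul_le_mul_of_nonneg_left e5 hΛ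
      have e7 : C * ∑ k ∈ range n, ((k : ℝ) + 1) * (1 / 2) ^ k ≤ C * T :=
        mul_le_mul_of_nonneg_left e3 hC
      linarith
    have e8 : Λ * (1 / 2 : ℝ) ^ n ≤ Λ * (1 / 2) ^ k₀ := by
      apply mul_le_mul_of_nonneg_left _ hΛ
      exact pow_le_pow_of_le_one (by norm_num) (by norm_num) hk₀n
    rw [e0]
    linarith
  · intro y h i1 i2 i3
    have e0 : B 0 = C := by simp [hB]
    rw [e0]
    exact h0 y h i1 i2 i3
  · intro k hk y h i1 i2 i3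
    rw [hBk k]
    exact h1 k hk y h i1 i2 i3

end Vale.Agent.P097.H146
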