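import Vale.Agent.P097.H146.Sum
import Vale.Agent.P097.H845.St.Use
import Vale.Agent.P097.H103.St.Abs

/-!
# P097, case [c], block (T) : second proof of `H509.St.TdSt` from `H226.W.Lat`
-/

set_option linter.all false

open Complex Metric Set Filter Topology

namespace Vale.Agent.P097.H146S

open Vale.Agent.P097.H146 (td_core Lt)
open Vale.Agent.P097.TC Vale.Agent.P097.H226.W Vale.Agent.P097.H509.St
open Vale.Agent.P097.H845.St (pt Pc)

/-- the lateral hypotheses at the scale `r'` for one component -/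
theorem lt_of {E : ℂ × ℂ → ℂ × ℂ} {g : ℂ × ℂ → ℂ} {S C₀ C₁ N r r' E₀ : ℝ} (hr : 0 < r)
    (hrr : r ≤ r') (hE : 0 < E₀) (hC : 0 ≤ C₀) (hC1 : 1 ≤ C₁) (hN : 0 ≤ N)
    (hg : ∀ z, ‖g z‖ ≤ ‖E z‖)
    (hnear : ∀ y x h R : ℝ, 0 < h → |y| + |x| + h + r ≤ R → R < S →
      40 * (C₀ * E₀ * (Real.sqrt (R / r) * (R / h) ^ 2)) < 1 →
      ‖E (pt y x h)‖ ≤ 40 * (C₀ * E₀ * (Real.sqrt (R / r) * (R / h) ^ 2)))
    (habs : ∀ y x h : ℝ, 0 < h → |y| + |x| + h + r < S →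
      ‖E (pt y x h)‖ ≤ (1 + Real.log ((|y| + |x| + h + r) / r)) *
        Real.exp (C₁ * ((|y| + |x| + h + r) / h) ^ N +
          Real.exp (C₁ * ((|y| + |x| + h + r) / h) ^ (1 / 2 : ℝ)))) :
    Lt S (40 * C₀ + C₁) N r' (E₀ * Real.sqrt (r' / r)) (1 + Real.log (r' / r)) g := by
  have hr' : 0 < r' := by linarith
  have h1r : 1 ≤ r' / r := (one_le_div hr).2 hrr
  have hG : 0 ≤ Real.log (r' / r) := Real.log_nonneg h1r
  constructor
  · intro y x h hh hS hlt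
    set R := |y| + |x| + h + r' with hR
    have hR0 : 0 < R := by positivity
    have hRr : |y| + |x| + h + r ≤ R := by linarith
    have e1 : (E₀ * Real.sqrt (r' / r)) * (R / r') ^ (1 / 2 : ℝ) = E₀ * Real.sqrt (R / r) := by
      rw [← Real.sqrt_eq_rpow, mul_assoc, ← Real.sqrt_mul (by positivity)]
      congr 2
      field_simp
    have e2 : (40 * C₀ + C₁) * (E₀ * Real.sqrt (r' / r)) * (R / r') ^ (1 / 2 : ℝ) *
        (R / h) ^ 2 = (40 * C₀ + C₁) * (E₀ * Real.sqrt (R / r)) * (R / h) ^ 2 := by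
      rw [mul_assoc (40 * C₀ + C₁), e1]
    rw [e2] at hlt ⊢
    have hq : 0 ≤ E₀ * Real.sqrt (R / r) * (R / h) ^ 2 := by positivity
    have h3 : 40 * (C₀ * E₀ * (Real.sqrt (R / r) * (R / h) ^ 2)) ≤
        (40 * C₀ + C₁) * (E₀ * Real.sqrt (R / r)) * (R / h) ^ 2 := by
      have : 0 ≤ C₁ * (E₀ * Real.sqrt (R / r) * (R / h) ^ 2) := by positivity
      linarith
    have h4 := hnear y x h R hh hRr hS (lt_of_le_of_lt h3 hlt)
    have h5 : 0 ≤ (40 * C₀ + C₁) * (E₀ * Real.sqrt (R / r)) * (R / h) ^ 2 := by positivity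
    calc ‖g ((y : ℂ) - (h : ℂ) * I, (x : ℂ) + (h : ℂ) * I)‖ ≤ ‖E (pt y x h)‖ := hg _
      _ ≤ 1 * ((40 * C₀ + C₁) * (E₀ * Real.sqrt (R / r)) * (R / h) ^ 2) := by linarith
      _ ≤ _ := by gcongr; linarith
  · intro y x h hh hS
    set R := |y| + |x| + h + r' with hR
    have hy := abs_nonneg y
    have hx := abs_nonneg x
    have hR0 : 0 < R := by positivity
    set R₁ := |y| + |x| + h + r with hR₁
    have hR10 : 0 < R₁ := by positivity
    have hRr : R₁ ≤ R := by linarith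
    have k := habs y x h hh (by linarith)
    have hRr' : 1 ≤ R / r' := (one_le_div hr').2 (by linarith)
    have hlR : 0 ≤ Real.log (R / r') := Real.log_nonneg hRr'
    have h1 : Real.log (R₁ / r) ≤ Real.log (r' / r) + Real.log (R / r') := by
      rw [← Real.log_mul (by positivity) (by positivity)]
      apply Real.log_le_log (by positivity)
      have : r' / r * (R / r') = R / r := by field_simp
      rw [this]
      gcongr
    have h2 : 1 + Real.log (R₁ / r) ≤ (1 + Real.log (r' / r)) * Real.exp (Real.log (R / r')) := by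
      have := Real.add_one_le_exp (Real.log (R / r'))
      nlinarith
    have h3 : R₁ / h ≤ R / h := by gcongr
    have h0 : 0 < R₁ / h := by positivity
    calc ‖g ((y : ℂ) - (h : ℂ) * I, (x : ℂ) + (h : ℂ) * I)‖ ≤ ‖E (pt y x h)‖ := hg _
      _ ≤ _ := k
      _ ≤ ((1 + Real.log (r' / r)) * Real.exp (Real.log (R / r'))) *
          Real.exp ((40 * C₀ + C₁) * (R / h) ^ N +
            Real.exp ((40 * C₀ + C₁) * (R / h) ^ (1 / 2 : ℝ))) := by
        have hc : C₁ ≤ 40 * C₀ + C₁ := by linarith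
        gcongr
      _ = (1 + Real.log (r' / r)) * Real.exp ((40 * C₀ + C₁) * (R / h) ^ N +
            Real.exp ((40 * C₀ + C₁) * (R / h) ^ (1 / 2 : ℝ)) + Real.log (R / r')) := by
        rw [mul_assoc, ← Real.exp_add]
        congr 2
        ring
      _ ≤ _ := by
        have : Real.log (R / r') ≤ (40 * C₀ + C₁) * Real.log (R / r') := by
          nlinarith
        gcongr

theorem tr_pt (y₀ x₀ y x h : ℝ) : tr y₀ x₀ (pt y x h) = pt (y₀ + y) (x₀ + x) h := by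
  simp only [tr, pt]
  refine Prod.ext ?_ ?_
  · push_cast; ring
  · push_cast; ring

theorem tr_mem {δ S y₀ x₀ : ℝ} (hy : |y₀| ≤ 1 / 8) (hx : |x₀| ≤ 1 / 8) (hS : S ≤ 1 / 8)
    {z : ℂ × ℂ} (hz : z ∈ Bx S ∩ Wd δ) : tr y₀ x₀ z ∈ Bx 1 ∩ Wd δ := by
  obtain ⟨⟨h1, h2, h3, h4⟩, h5, h6⟩ := hz
  have e1 : (tr y₀ x₀ z).1.re = y₀ + z.1.re := by simp [tr]
  have e2 : (tr y₀ x₀ z).1.im = z.1.im := by simp [tr]
  have e3 : (tr y₀ x₀ z).2.re = x₀ + z.2.re := by simp [tr]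
  have e4 : (tr y₀ x₀ z).2.im = z.2.im := by simp [tr]
  refine ⟨⟨?_, ?_, ?_, ?_⟩, ?_, ?_⟩
  · rw [e1]
    have := abs_add_le y₀ z.1.re
    linarith
  · rw [e2]; linarith
  · rw [e3]
    have := abs_add_le x₀ z.2.re
    linarith
  · rw [e4]; linarith
  · show 0 < (tr y₀ x₀ z).2.im
    rw [e4]; exact h5
  · show (tr y₀ x₀ z).1.im < δ * (tr y₀ x₀ z).2.im
    rw [e2, e4]; exact h6

theorem tr_diff (y₀ x₀ : ℝ) : Differentiable ℂ (tr y₀ x₀) := by
  unfold tr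
  fun_prop

theorem tr_cont : Continuous (fun t : ℝ × (ℝ × (ℂ × ℂ)) => tr t.1 t.2.1 t.2.2) := by
  unfold tr
  fun_prop

/-- **`TdSt`** -/
theorem tdst_of (hL : H226.W.Lat) : TdSt := by
  intro Λ b F q hc hg Xp op X om e V C₀ δ hXp hop hop2 hXX hom homop he hV hC₀ hδ W hW hWd
  have hX : 1 ≤ X := by linarith
  obtain ⟨C₁, hC₁, N, hN, habs⟩ := Vale.Agent.P097.H103.St.abs_LL hL hc hg (1 / 2) (by norm_num)
    e X om V he hX hom (by linarith) hV
  set S : ℝ := 1 / (8 * (X + 5)) with hS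
  have hS0 : 0 < S := by positivity
  have hSX : (X + 5) * S = 1 / 8 := by rw [hS]; field_simp
  have hS8 : S ≤ 1 / 8 := by nlinarith
  obtain ⟨Z, hZ, hZs, r₀, hr₀, H⟩ := td_core hδ hW hWd hS0
  obtain ⟨M, hM, H⟩ := H (40 * C₀ + C₁) N (by positivity) hN
  refine ⟨M, hM, min r₀ 1, by positivity, min_le_right _ _,
    (fun t : ℝ × (ℝ × (ℂ × ℂ)) => tr t.1 t.2.1 t.2.2) ''
      (Icc (-(1 / 8)) (1 / 8) ×ˢ (Icc (-(1 / 8)) (1 / 8) ×ˢ Z)), ?_, ?_, ?_⟩
  · exact (isCompact_Icc.prod (isCompact_Icc.prod hZ)).image tr_cont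
  · rintro _ ⟨⟨y, x, z⟩, ⟨hy, hx, hz⟩, rfl⟩
    exact tr_mem (abs_le.2 hy) (abs_le.2 hx) hS8 (hZs hz)
  intro al p th hSW y₀ x₀ r hy₀ hx₀ hr hrτ hMV E₀ hE₀ hE₁ hGG A hA hZA r' hrr hr'τ z hz
  have hr' : 0 < r' := by linarith
  have hr'r₀ : r' ≤ r₀ := hr'τ.trans (min_le_left _ _)
  have h1r : 1 ≤ r' / r := (one_le_div hr).2 hrr
  have hl0 : 0 ≤ Real.log (r' / r) := Real.log_nonneg h1r
  have hsq : 1 ≤ Real.sqrt (r' / r) := Real.one_le_sqrt.2 h1r
  set E : ℂ × ℂ → ℂ × ℂ := fun z => LL al p (tr y₀ x₀ z) - LL al p (pt y₀ x₀ r) with hEdef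
  have hnear : ∀ y x h R : ℝ, 0 < h → |y| + |x| + h + r ≤ R → R < S →
      40 * (C₀ * E₀ * (Real.sqrt (R / r) * (R / h) ^ 2)) < 1 →
      ‖E (pt y x h)‖ ≤ 40 * (C₀ * E₀ * (Real.sqrt (R / r) * (R / h) ^ 2)) := by
    intro y x h R hh hR hRS hsm
    have hy := abs_nonneg y
    have hx := abs_nonneg x
    have a1 : |y| ≤ 1 / 8 := by linarith
    have a2 : |x| ≤ 1 / 8 := by linarith
    rw [hEdef]
    simp only
    rw [tr_pt]
    refine H845.StP.near_sw hSW hXp hop hop2 hC₀.le hE₀.le (by linarith) (by linarith) hr hGG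
      ?_ ?_ hh ?_ ?_ hsm
    · have := abs_add_le y₀ y
      linarith
    · have := abs_add_le x₀ x
      linarith
    · rw [add_sub_cancel_left, add_sub_cancel_left]; exact hR
    · rw [le_div_iff₀ (by positivity)]
      nlinarith
  have habs' : ∀ y x h : ℝ, 0 < h → |y| + |x| + h + r < S →
      ‖E (pt y x h)‖ ≤ (1 + Real.log ((|y| + |x| + h + r) / r)) *
        Real.exp (C₁ * ((|y| + |x| + h + r) / h) ^ N +
          Real.exp (C₁ * ((|y| + |x| + h + r) / h) ^ (1 / 2 : ℝ))) := by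
    intro y x h hh hRS
    refine habs hSW.sq y₀ x₀ r (by linarith) (by linarith) hr hMV y x h hh ?_
    nlinarith
  have hmaps : MapsTo (tr y₀ x₀) (Bx S ∩ Wd δ) (Bx 1 ∩ Wd δ) := fun z hz =>
    tr_mem hy₀ hx₀ hS8 hz
  have hd1 : DifferentiableOn ℂ (fun z => (E z).1) (Bx S ∩ Wd δ) := by
    have := hSW.dal.comp (tr_diff y₀ x₀).differentiableOn hmaps
    exact this.sub_const _
  have hd2 : DifferentiableOn ℂ (fun z => (E z).2) (Bx S ∩ Wd δ) := by
    have := hSW.dp.comp (tr_diff y₀ x₀).differentiableOn hmaps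
    exact this.sub_const _
  have hEZ : ∀ z ∈ Z, ‖E z‖ ≤ Real.exp A := fun z hz =>
    hZA _ ⟨(y₀, x₀, z), ⟨abs_le.1 hy₀, abs_le.1 hx₀, hz⟩, rfl⟩
  have L1 := lt_of (g := fun z => (E z).1) hr hrr hE₀ hC₀.le hC₁ hN (fun z => norm_fst_le _)
    hnear habs'
  have L2 := lt_of (g := fun z => (E z).2) hr hrr hE₀ hC₀.le hC₁ hN (fun z => norm_snd_le _)
    hnear habs'
  have K1 := H _ hd1 r' (E₀ * Real.sqrt (r' / r)) A (1 + Real.log (r' / r)) hr' hr'r₀
    (by positivity) hA (by linarith) L1 (fun z hz => (norm_fst_le _).trans (hEZ z hz)) z hz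
  have K2 := H _ hd2 r' (E₀ * Real.sqrt (r' / r)) A (1 + Real.log (r' / r)) hr' hr'r₀
    (by positivity) hA (by linarith) L2 (fun z hz => (norm_snd_le _).trans (hEZ z hz)) z hz
  refine ⟨(hmaps K1.1).1, ?_⟩
  have hlog : max (Real.log (E₀ * Real.sqrt (r' / r))⁻¹) 0 ≤ max (Real.log E₀⁻¹) 0 := by
    apply max_le_max _ le_rfl
    apply Real.log_le_log (by positivity)
    apply inv_anti₀ hE₀
    nlinarith
  have hfin : (1 + Real.log (r' / r)) * (E₀ * Real.sqrt (r' / r)) *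
      Real.exp (M + M * r' * (A + max (Real.log (E₀ * Real.sqrt (r' / r))⁻¹) 0)) ≤
      E₀ * Real.sqrt (r' / r) * (1 + Real.log (r' / r)) *
        Real.exp (M + M * r' * (A + max (Real.log E₀⁻¹) 0)) := by
    rw [mul_comm (1 + Real.log (r' / r))]
    gcongr
  show ‖E ((r' : ℂ) • z)‖ ≤ _
  rw [Prod.norm_def]
  exact max_le (K1.2.trans hfin) (K2.2.trans hfin)

end Vale.Agent.P097.H146S
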