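import Vale.Agent.P097.H146.TdSt
import Vale.Agent.P097.H19.Lat

/-!
# P097, case [c], block (T) : `H509.St.TdSt` without hypothesis
-/

namespace Vale.Agent.P097.H146S

/-- **row ST-5** -/
theorem tdst : Vale.Agent.P097.H509.St.TdSt := tdst_of Vale.Agent.P097.H19.lat

end Vale.Agent.P097.H146S
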